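import Vale.Agent.P028.Defs

/-! # P028 Anat
Anatomy and the densities rho.
Plan. anat: primes in (2^j, 2^(j+1)] have harmonic sum <= theta (2^(j+1)) / (2^j * j * log 2) <= 4 / j
(Chebyshev.theta_le_log4_mul_x); summing j = a .. 2a-1 the primes in (2^a, 2^(2a)] contribute at
most 4 (nothing if a = 0). So the prime factors p > 2^(2a) have harmonic sum >= 1, and for them
p^(-1/32) >= p^(1/2) / p >= 2^a / p. The rho lemmas use exp (-2/p) <= 1 - 1/p for p >= 2,
1/p <= p^(-1/32), Nat.totient_eq_mul_prod_factors, and 1/2 <= 1 - 1/p <= 1. -/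

namespace Vale.Agent.P028
open Finset MeasureTheory
open scoped Classical

theorem anat_blk (j : ℕ) (s : Finset ℕ) (hs : ∀ p ∈ s, p.Prime ∧ 2 ^ j < p ∧ p ≤ 2 ^ (j + 1)) :
    j * ∑ p ∈ s, (1 / p : ℝ) ≤ 4 := by
  have l2 := Real.log_pos one_lt_two
  have h1 : ∑ p ∈ s, Real.log p ≤ Chebyshev.theta (2 ^ (j + 1) : ℕ) := by
    rw [Chebyshev.theta, Nat.floor_natCast]
    exact sum_le_sum_of_subset_of_nonneg
      (fun p hp => mem_filter.2 ⟨mem_Ioc.2 ⟨(hs p hp).1.pos, (hs p hp).2.2⟩, (hs p hp).1⟩)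
      fun p _ _ => Real.log_natCast_nonneg p
  have h2 := h1.trans (Chebyshev.theta_le_log4_mul_x (Nat.cast_nonneg _))
  rw [show (4 : ℝ) = 2 ^ 2 by norm_num, Real.log_pow] at h2
  have h3 : Real.log 2 * 2 ^ j * (j * ∑ p ∈ s, (1 / p : ℝ)) ≤ ∑ p ∈ s, Real.log p := by
    rw [mul_sum, mul_sum]
    refine sum_le_sum fun p hp => ?_
    have a1 : (2 : ℝ) ^ j ≤ p := by exact_mod_cast (hs p hp).2.1.le
    have a2 := Real.log_le_log (by positivity) a1
    rw [Real.log_pow] at a2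
    calc _ = j * Real.log 2 * (2 ^ j / p) := by ring
      _ ≤ j * Real.log 2 :=
        mul_le_of_le_one_right (by positivity) (div_le_one_of_le₀ a1 (by positivity))
      _ ≤ _ := a2
  refine le_of_mul_le_mul_left (h3.trans (h2.trans_eq ?_)) (by positivity)
  push_cast
  ring

theorem anat_rng (a m : ℕ) (hm : m ≤ a) (s : Finset ℕ) (hs : ∀ p ∈ s, p.Prime) :
    ∑ p ∈ s with 2 ^ a < p ∧ p ≤ 2 ^ (a + m), (1 / p : ℝ) ≤ 4 * m / a := by
  induction m with
  | zero =>
    rw [filter_false_of_mem fun p _ h => absurd h.2 (not_le.2 h.1)]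
    simp
  | succ m ih =>
    have a0 : (0 : ℝ) < a := Nat.cast_pos.2 (by omega)
    have h1 := anat_blk (a + m) (s.filter fun p => 2 ^ (a + m) < p ∧ p ≤ 2 ^ (a + m + 1))
      fun p hp => ⟨hs p (mem_filter.1 hp).1, (mem_filter.1 hp).2⟩
    have h2 : ∑ p ∈ s with 2 ^ (a + m) < p ∧ p ≤ 2 ^ (a + m + 1), (1 / p : ℝ) ≤ 4 / a := by
      rw [le_div_iff₀' a0]
      refine le_trans (mul_le_mul_of_nonneg_right ?_ (sum_nonneg fun _ _ => by positivity)) h1
      exact_mod_cast Nat.le_add_right a m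
    refine le_trans ?_ ((add_le_add (ih (by omega)) h2).trans_eq (by push_cast; ring))
    rw [sum_filter, sum_filter, sum_filter, ← sum_add_distrib]
    refine sum_le_sum fun p _ => ?_
    have : (0 : ℝ) ≤ 1 / p := by positivity
    rw [← add_assoc]
    split_ifs <;> first | linarith | omega

theorem anat_fac {p q : ℕ} (hp : p ∈ q.primeFactors) :
    (1 / 2 : ℝ) ≤ 1 - 1 / p ∧ (1 - 1 / p : ℝ) ≤ 1 := by
  have h : (2 : ℝ) ≤ p := by exact_mod_cast (Nat.prime_of_mem_primeFactors hp).two_le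
  have := one_div_le_one_div_of_le two_pos h
  have : (0 : ℝ) ≤ 1 / p := by positivity
  constructor <;> linarith

theorem anat_prod {s : Finset ℕ} {q : ℕ} (hs : s ⊆ q.primeFactors) :
    Real.exp (-2 * ∑ p ∈ s, (1 / p : ℝ)) ≤ ∏ p ∈ s, (1 - 1 / p : ℝ) := by
  rw [mul_sum, Real.exp_sum]
  refine prod_le_prod (fun _ _ => (Real.exp_pos _).le) fun p hp => ?_
  obtain ⟨h1, h2⟩ := anat_fac (hs hp)
  generalize (1 / p : ℝ) = x at h1 h2
  have h3 := Real.add_one_le_exp (2 * x)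
  rw [neg_mul, Real.exp_neg, inv_le_iff_one_le_mul₀ (Real.exp_pos _)]
  nlinarith

theorem anat_sub (d : Dat) (q : ℕ) : ∏ p ∈ q.primeFactors, (1 - 1 / p : ℝ) ≤ d.rho q :=
  prod_le_prod_of_subset_of_le_one (filter_subset _ _)
    (fun p hp => by linarith [(anat_fac hp).1]) fun p hp _ => (anat_fac hp).2

theorem anat (a n : ℕ) (h : 5 < Lt (2 ^ a) n) : Real.exp (2 ^ a) ≤ Psi n := by
  have h1 := anat_rng a a le_rfl n.primeFactors fun p hp => Nat.prime_of_mem_primeFactors hp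
  have h2 : 4 * (a : ℝ) / a ≤ 4 := by
    rw [mul_div_assoc]
    exact mul_le_of_le_one_right (by norm_num) (div_self_le_one _)
  rw [Lt, ← sum_filter_add_sum_filter_not _ fun p => p ≤ 2 ^ (a + a), filter_filter] at h
  refine Real.exp_le_exp.2 (le_trans ?_ (sum_le_sum_of_subset_of_nonneg
    (s := (n.primeFactors.filter fun p => 2 ^ a < p).filter fun p => ¬ p ≤ 2 ^ (a + a))
    ((filter_subset _ _).trans (filter_subset _ _))
    fun _ _ _ => Real.rpow_nonneg (Nat.cast_nonneg _) _))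
  refine (le_mul_of_one_le_right (by positivity) (by linarith)).trans
    ((mul_sum _ _ _).trans_le (sum_le_sum fun p hp => ?_))
  have a1 : ((2 : ℝ) ^ a) ^ 2 ≤ p := by
    rw [← pow_mul, mul_two]
    exact_mod_cast (not_le.1 (mem_filter.1 hp).2).le
  have a2 : (1 : ℝ) ≤ p := (one_le_pow₀ (one_le_pow₀ one_le_two)).trans a1
  have a3 : (2 : ℝ) ^ a ≤ (p : ℝ) ^ (1 / 2 : ℝ) := by
    rw [← Real.sqrt_eq_rpow]
    exact Real.le_sqrt_of_sq_le a1
  calc (2 : ℝ) ^ a * (1 / p) ≤ (p : ℝ) ^ (1 / 2 : ℝ) * (p : ℝ) ^ (-1 : ℝ) := by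
        rw [Real.rpow_neg_one, one_div (p : ℝ)]
        gcongr
    _ ≤ _ := by
        rw [← Real.rpow_add (by linarith)]
        exact Real.rpow_le_rpow_of_exponent_le a2 (by norm_num)

namespace Dat
variable (d : Dat)

theorem rho_pos (q : ℕ) : 0 < d.rho q := by
  exact prod_pos fun p hp => by linarith [(anat_fac (mem_filter.1 hp).1).1]

theorem rhv_nonneg (v q : ℕ) : 0 ≤ d.rhv v q := by
  exact prod_nonneg fun p hp => by linarith [(anat_fac (mem_filter.1 hp).1).1]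

theorem rho_ge (q : ℕ) : 1 / Psi q ^ 2 ≤ d.rho q := by
  refine le_trans ?_ (anat_prod (filter_subset _ _))
  rw [Psi, ← Real.exp_nat_mul, one_div, ← Real.exp_neg, Real.exp_le_exp, neg_mul, neg_le_neg_iff]
  refine mul_le_mul_of_nonneg_left ((sum_le_sum fun p hp => ?_).trans
    (sum_le_sum_of_subset_of_nonneg (filter_subset _ _)
      fun _ _ _ => Real.rpow_nonneg (Nat.cast_nonneg _) _)) zero_le_two
  rw [one_div, ← Real.rpow_neg_one]
  exact Real.rpow_le_rpow_of_exponent_le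
    (Nat.one_le_cast.2 (Nat.pos_of_mem_primeFactors (mem_filter.1 hp).1)) (by norm_num)

theorem rho_ge_two (q : ℕ) : 1 / 2 ^ q.primeFactors.card ≤ d.rho q := by
  rw [← one_div_pow, ← prod_const]
  exact (prod_le_prod (fun _ _ => by norm_num) fun p hp => (anat_fac hp).1).trans (anat_sub d q)

theorem phi_le_rho {q : ℕ} (hq : 0 < q) : (q.totient : ℝ) / q ≤ d.rho q := by
  have h : (q.totient : ℝ) = q * ∏ p ∈ q.primeFactors, (1 - 1 / p : ℝ) := by
    have := congrArg (Rat.cast : ℚ → ℝ) (Nat.totient_eq_mul_prod_factors q)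
    simpa using this
  rw [h, mul_div_cancel_left₀ _ (by positivity)]
  exact anat_sub d q

theorem rhv_le {v q : ℕ} (h : Lt v q ≤ 5) : d.rhv v q ≤ Real.exp 10 * d.rho q := by
  have h1 : Real.exp (-10) ≤ ∏ p ∈ (q.primeFactors.filter fun p => ¬ p ∣ d.B (Nat.log 2 q)).filter
      fun p => ¬ p ≤ v, (1 - 1 / p : ℝ) := by
    refine le_trans (Real.exp_le_exp.2 ?_)
      (anat_prod ((filter_subset _ _).trans (filter_subset _ _)))
    have := sum_le_sum_of_subset_of_nonneg (f := fun p : ℕ => (1 / p : ℝ))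
      (show (q.primeFactors.filter fun p => ¬ p ∣ d.B (Nat.log 2 q)).filter (fun p => ¬ p ≤ v) ⊆
        q.primeFactors.filter fun p => v < p from fun p hp =>
          mem_filter.2 ⟨(mem_filter.1 (mem_filter.1 hp).1).1, not_le.1 (mem_filter.1 hp).2⟩)
      fun _ _ _ => by positivity
    rw [Lt] at h
    linarith
  have h2 := mul_le_mul_of_nonneg_left h1 (d.rhv_nonneg v q)
  rw [rho, ← prod_filter_mul_prod_filter_not _ fun p => p ≤ v, filter_comm, filter_filter,
    ← inv_mul_le_iff₀ (Real.exp_pos _), ← Real.exp_neg, mul_comm]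
  exact h2

theorem w_nonneg (q : ℕ) : 0 ≤ d.w q := mul_nonneg (d.rho_pos q).le (d.ψ0 q)

end Dat

end Vale.Agent.P028
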