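import Vale.Agent.P028.Good

/-! # P028 Bad
Bad pairs and the dichotomy.
Plan. bad_le: if Prs is empty ov = 0. Otherwise take (a, b) in Prs, h = a r1 - b q1, nu = r1 - q1:
h B + A nu = r1 (a B + A) - q1 (b B + A) with the (A, B) of r; if it is 0 then r1 | lin r b, and
r1 > 1 (q < r) has a prime factor dividing r: contradiction. 2D <= r / q / g by psi1. So BP holds;
cntA gives card <= g (4D + 1) <= 20 g Z^3, and g * min (psi q / q) (psi r / r) = min (psi q / q1)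
(psi r / r1). ov_le: if D < 4 use bad_le; otherwise take the largest a with 4^2^a <= D (Nat.find on
D < 4^2^(a+1)); either good applies or anat gives D < 16^(2^a) <= exp (2^a) ^ 3 <= Z^3. -/

namespace Vale.Agent.P028
open Finset MeasureTheory
open scoped Classical

namespace Dat
variable (d : Dat)

theorem bad_nonneg (q r : ℕ) : 0 ≤ d.bad q r := by
  unfold bad
  split_ifs
  · exact mul_nonneg (pow_nonneg (mul_pos (Psi_pos q) (Psi_pos r)).le 3)
      (le_min (div_nonneg (d.ψ0 q) (Nat.cast_nonneg _)) (div_nonneg (d.ψ0 r) (Nat.cast_nonneg _)))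
  · exact le_rfl

theorem bad_Z (q r : ℕ) : 1 ≤ (Psi q * Psi r) ^ 3 :=
  one_le_pow₀ (one_le_mul_of_one_le_of_one_le (one_le_Psi q) (one_le_Psi r))

theorem bad_le {q r : ℕ} (hq : 0 < q) (hqr : q < r) (hD : d.D q r ≤ 4 * (Psi q * Psi r) ^ 3) :
    d.ov q r ≤ 40 * d.bad q r := by
  rcases (d.Prs q r).eq_empty_or_nonempty with h | ⟨x, hx⟩
  · rw [ov, h, card_empty, Nat.cast_zero, mul_zero]
    exact mul_nonneg (by norm_num) (d.bad_nonneg q r)
  have g0 := Nat.gcd_pos_of_pos_left r hq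
  have hc := Nat.coprime_div_gcd_div_gcd g0
  have e1 := Nat.mul_div_cancel' (Nat.gcd_dvd_left q r)
  have e2 := Nat.mul_div_cancel' (Nat.gcd_dvd_right q r)
  have lt : q / q.gcd r < r / q.gcd r := Nat.lt_of_mul_lt_mul_left (a := q.gcd r) (by rwa [e1, e2])
  have q1 : 0 < q / q.gcd r := Nat.pos_of_mul_pos_left (a := q.gcd r) (by rwa [e1])
  have Q0 : (0 : ℝ) < q := Nat.cast_pos.2 hq
  have G0 : (0 : ℝ) < q.gcd r := Nat.cast_pos.2 g0
  have E1 : (q.gcd r : ℝ) * (q / q.gcd r : ℕ) = q := by exact_mod_cast e1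
  have E2 : (q.gcd r : ℝ) * (r / q.gcd r : ℕ) = r := by exact_mod_cast e2
  have D0 : 0 ≤ d.D q r := le_max_of_le_left (mul_nonneg (Nat.cast_nonneg _) (d.ψ0 q))
  have D1 : 2 * d.D q r ≤ (r : ℝ) / q / q.gcd r := by
    have a1 : ((q / q.gcd r : ℕ) : ℝ) ≤ (r / q.gcd r : ℕ) := Nat.cast_le.2 lt.le
    have a2 : (q : ℝ) * d.ψ r ≤ 1 / 4 :=
      (mul_le_mul_of_nonneg_right (Nat.cast_le.2 hqr.le) (d.ψ0 r)).trans (d.ψ1 r)
    have a3 : (0 : ℝ) ≤ (q / q.gcd r : ℕ) := Nat.cast_nonneg _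
    rw [div_right_comm, (div_eq_iff G0.ne').2 (E2.symm.trans (mul_comm _ _)), le_div_iff₀ Q0, D]
    rcases max_choice (((r / q.gcd r : ℕ) : ℝ) * d.ψ q) ((q / q.gcd r : ℕ) * d.ψ r) with h | h <;>
      rw [h] <;> nlinarith [d.ψ1 q]
  have hB : d.BP q r := by
    obtain ⟨h1, h2⟩ := mem_filter.1 hx
    refine ⟨x.1 * (r / q.gcd r : ℕ) - x.2 * (q / q.gcd r : ℕ),
      lt_of_eq_of_lt (by simp only [Int.cast_sub, Int.cast_mul, Int.cast_natCast])
        (h2.trans_le D1), fun e => ?_⟩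
    obtain ⟨p, p1, p2⟩ := Nat.exists_prime_and_dvd (show r / q.gcd r ≠ 1 by omega)
    refine (mem_filter.1 (mem_product.1 h1).2).2 p (Nat.mem_primeFactors.2
      ⟨p1, p2.trans (Dvd.intro_left _ e2), by omega⟩) ((Int.natCast_dvd_natCast.2 p2).trans
      ((Nat.isCoprime_iff_coprime.2 hc.symm).dvd_of_dvd_mul_left
        ⟨x.1 * d.B (Nat.log 2 r) + d.A (Nat.log 2 r), ?_⟩))
    rw [lin]
    linear_combination -e
  have c := cntA (g := q.gcd r) q1 hc (R := 2 * d.D q r) (by linarith) (d.Prs q r) fun y hy => by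
    obtain ⟨h1, h2⟩ := mem_filter.1 hy
    obtain ⟨h3, h4⟩ := mem_Ico.1 (mem_filter.1 (mem_product.1 h1).1).1
    exact ⟨h3, by rwa [e1], h2⟩
  have m0 : 0 ≤ min (d.ψ q / q) (d.ψ r / r) :=
    le_min (div_nonneg (d.ψ0 q) (Nat.cast_nonneg _)) (div_nonneg (d.ψ0 r) (Nat.cast_nonneg _))
  have e : min (d.ψ q / (q / q.gcd r : ℕ)) (d.ψ r / (r / q.gcd r : ℕ)) =
      q.gcd r * min (d.ψ q / q) (d.ψ r / r) := by
    rw [mul_min_of_nonneg _ _ G0.le, ← mul_div_assoc, ← mul_div_assoc,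
      ← mul_div_mul_left _ ((q / q.gcd r : ℕ) : ℝ) G0.ne',
      ← mul_div_mul_left _ ((r / q.gcd r : ℕ) : ℝ) G0.ne', E1, E2]
  rw [ov, bad, if_pos hB, e]
  refine (mul_le_mul_of_nonneg_left c (by linarith)).trans ?_
  nlinarith [mul_le_mul_of_nonneg_left (show 2 * (2 * d.D q r) + 1 ≤ 20 * (Psi q * Psi r) ^ 3 by
    linarith [bad_Z q r]) (mul_nonneg G0.le m0)]

theorem ov_le {q r : ℕ} (hq : 0 < q) (hqr : q < r) :
    d.ov q r ≤ 10 * Real.exp 20 * (d.w q * d.w r) + 40 * d.bad q r := by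
  have h0 : 0 ≤ 10 * Real.exp 20 * (d.w q * d.w r) :=
    mul_nonneg (by positivity) (mul_nonneg (d.w_nonneg q) (d.w_nonneg r))
  have hb := d.bad_nonneg q r
  have Z := bad_Z q r
  by_cases hD : d.D q r ≤ 4 * (Psi q * Psi r) ^ 3
  · linarith [d.bad_le hq hqr hD]
  have ex : ∃ a : ℕ, d.D q r < (4 : ℝ) ^ 2 ^ (a + 1) := by
    obtain ⟨a, ha⟩ := pow_unbounded_of_one_lt (d.D q r) (show (1 : ℝ) < 4 by norm_num)
    exact ⟨a, ha.trans_le (pow_le_pow_right₀ (by norm_num)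
      (Nat.lt_two_pow_self.le.trans (Nat.pow_le_pow_right two_pos a.le_succ)))⟩
  have h1 := Nat.find_spec ex
  have h2 : (4 : ℝ) ^ 2 ^ Nat.find ex ≤ d.D q r := by
    rcases (Nat.find ex).eq_zero_or_pos with e | e
    · rw [e]
      norm_num
      linarith
    · have := Nat.find_min ex (Nat.sub_lt e one_pos)
      rw [Nat.sub_add_cancel (m := 1) e] at this
      exact not_lt.1 this
  generalize Nat.find ex = a at h1 h2
  have h3 : (4 : ℝ) ^ 2 ^ (a + 1) ≤ Real.exp (2 ^ a) ^ 3 := by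
    rw [pow_succ', pow_mul, show (2 : ℝ) ^ a = (2 ^ a : ℕ) * 1 by simp, Real.exp_nat_mul,
      pow_right_comm (Real.exp 1)]
    refine pow_le_pow_left₀ (by norm_num) (le_trans (by norm_num) (pow_le_pow_left₀ (by norm_num)
      Real.exp_one_gt_d9.le 3)) _
  have h4 : ¬ Real.exp (2 ^ a) ≤ Psi q * Psi r := fun h => by
    linarith [pow_le_pow_left₀ (Real.exp_pos _).le h 3]
  linarith [d.good hq (hq.trans hqr) h2
    (not_lt.1 fun h => h4 ((anat a q h).trans (le_mul_of_one_le_right (Psi_pos q).le (one_le_Psi r))))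
    (not_lt.1 fun h => h4 ((anat a r h).trans (le_mul_of_one_le_left (Psi_pos r).le (one_le_Psi q))))]

end Dat

end Vale.Agent.P028
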