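import Vale.Agent.P028.Defs

/-! # P028 Bohr
Counting non-principal lattice points.
Plan. boh_box: eta = |B gamma - A|. Choose h for every nu in S and fibre over H = h B + A nu, a
nonzero integer with |H| <= R B + Y eta (H = B (h + gamma nu) - nu (B gamma - A)): at most
2 (R B + Y eta) values. On a fibre all nu are congruent mod B (d.cop) and differ by at most 2Y,
and |nu - nu0| eta <= 2 R B; so the fibre size m has (m - 1) B <= 2Y and (m - 1) eta <= 2R (look at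
the largest and smallest element). Hence card <= 2R (2Y + B) + 2Y (2R + eta); use B1, app.
boh_count: U = 2^(j/2), s = bt g ^ 8 has s^2 = g, U s <= 2^(j+1), s <= 2U. -/

namespace Vale.Agent.P028
open Finset MeasureTheory
open scoped Classical

theorem bohr_fib {F : Finset ℤ} (hF : F.Nonempty) {B : ℤ} (hB : 0 < B)
    (h : ∀ x ∈ F, ∀ y ∈ F, B ∣ x - y) : ∃ a ∈ F, ∃ b ∈ F, ((F.card : ℤ) - 1) * B ≤ b - a := by
  refine ⟨F.min' hF, F.min'_mem hF, F.max' hF, F.max'_mem hF, ?_⟩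
  have ha := F.min'_mem hF
  have h0 : 0 ≤ (F.max' hF - F.min' hF) / B :=
    Int.ediv_nonneg (sub_nonneg.2 (F.le_max' _ ha)) hB.le
  have h1 : F.card ≤ (Icc (0 : ℤ) ((F.max' hF - F.min' hF) / B)).card := by
    refine card_le_card_of_injOn (fun x => (x - F.min' hF) / B) (fun x hx => ?_)
      (fun x hx y hy hxy => ?_)
    · exact mem_coe.2 (mem_Icc.2 ⟨Int.ediv_nonneg (sub_nonneg.2 (F.min'_le x hx)) hB.le,
        Int.ediv_le_ediv hB (sub_le_sub_right (F.le_max' x hx) _)⟩)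
    · have e1 := Int.ediv_mul_cancel (h x hx _ ha)
      have e2 := Int.ediv_mul_cancel (h y hy _ ha)
      beta_reduce at hxy
      rw [hxy, e2] at e1
      linarith
  rw [Int.card_Icc] at h1
  have h2 : (F.card : ℤ) - 1 ≤ (F.max' hF - F.min' hF) / B := by omega
  exact (mul_le_mul_of_nonneg_right h2 hB.le).trans (Int.ediv_mul_le _ hB.ne')

theorem bohr_vals {t : Finset ℤ} {T : ℝ} (hT : 0 ≤ T) (h : ∀ x ∈ t, x ≠ 0 ∧ |(x : ℝ)| ≤ T) :
    (t.card : ℝ) ≤ 2 * T := by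
  have h1 : t ⊆ (Icc (-(⌊T⌋₊ : ℤ)) ⌊T⌋₊).erase 0 := fun x hx => by
    obtain ⟨a, b⟩ := h x hx
    have c : x.natAbs ≤ ⌊T⌋₊ := Nat.le_floor (by rwa [Nat.cast_natAbs, Int.cast_abs])
    exact mem_erase.2 ⟨a, mem_Icc.2 (by omega)⟩
  have h2 := card_le_card h1
  rw [card_erase_of_mem (mem_Icc.2 (by omega)), Int.card_Icc] at h2
  have h3 : t.card ≤ 2 * ⌊T⌋₊ := by omega
  have h4 : (t.card : ℝ) ≤ 2 * (⌊T⌋₊ : ℝ) := by exact_mod_cast h3
  linarith [Nat.floor_le hT]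

namespace Dat
variable (d : Dat)

theorem boh_box (j : ℕ) {Y R : ℝ} (hY : 0 ≤ Y) (hR : 0 ≤ R) (S : Finset ℤ)
    (hS : ∀ ν ∈ S, |(ν : ℝ)| ≤ Y ∧ d.Boh j ν R) :
    (S.card : ℝ) ≤ 8 * R * Y + 2 * R * 2 ^ (j / 2) + 2 * Y / 2 ^ (j / 2) := by
  rcases S.eq_empty_or_nonempty with rfl | ⟨ν0, hν0⟩
  · rw [card_empty, Nat.cast_zero]; positivity
  have ex : ∀ ν : ℤ, ∃ h : ℤ, ν ∈ S → |(h : ℝ) + d.γ * ν| < R ∧ h * d.B j + d.A j * ν ≠ 0 :=
    fun ν => by
      by_cases hν : ν ∈ S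
      · exact (hS ν hν).2.imp fun _ h _ => h
      · exact ⟨0, fun h => absurd h hν⟩
  choose h hh using ex
  have B0 : (0 : ℝ) < d.B j := Nat.cast_pos.2 (d.B0 j)
  have B1 : (d.B j : ℝ) ≤ 2 ^ (j / 2) := by exact_mod_cast d.B1 j
  have happ := d.app j
  obtain ⟨η, hη⟩ : ∃ η, η = |(d.B j : ℝ) * d.γ - d.A j| := ⟨_, rfl⟩
  have η0 : 0 ≤ η := hη ▸ abs_nonneg _
  rw [← hη] at happ
  obtain ⟨H, hH⟩ : ∃ H : ℤ → ℤ, H = fun ν => h ν * d.B j + d.A j * ν := ⟨_, rfl⟩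
  have e : ∀ ν, (H ν : ℝ) = d.B j * (h ν + d.γ * ν) - ν * (d.B j * d.γ - d.A j) := fun ν => by
    rw [hH]; push_cast; ring
  have hT : ∀ ν ∈ S, H ν ≠ 0 ∧ |(H ν : ℝ)| ≤ R * d.B j + Y * η := fun ν hν => by
    refine ⟨hH ▸ (hh ν hν).2, ?_⟩
    rw [e]
    refine (abs_sub _ _).trans (add_le_add ?_ ?_)
    · rw [abs_mul, abs_of_pos B0, mul_comm]
      exact mul_le_mul_of_nonneg_right (hh ν hν).1.le B0.le
    · rw [abs_mul, ← hη]
      exact mul_le_mul_of_nonneg_right (hS ν hν).1 η0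
  have T0 : 0 < R * d.B j + Y * η :=
    (abs_pos.2 (Int.cast_ne_zero.2 (hT ν0 hν0).1)).trans_le (hT ν0 hν0).2
  have hv : ((S.image H).card : ℝ) ≤ 2 * (R * d.B j + Y * η) := bohr_vals T0.le fun x hx => by
    obtain ⟨ν, hν, rfl⟩ := mem_image.1 hx
    exact hT ν hν
  have hf : ∀ x ∈ S.image H, ((S.filter fun ν => H ν = x).card : ℝ) * (R * d.B j + Y * η) ≤
      R * (2 * Y + d.B j) + Y * (2 * R + η) := fun x hx => by
    obtain ⟨ν, hν, hνx⟩ := mem_image.1 hx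
    obtain ⟨a, ha, b, hb, hab⟩ := bohr_fib (F := S.filter fun ν => H ν = x) (B := d.B j)
      ⟨ν, mem_filter.2 ⟨hν, hνx⟩⟩ (Nat.cast_pos.2 (d.B0 j)) fun y hy z hz => by
        obtain ⟨-, y2⟩ := mem_filter.1 hy
        obtain ⟨-, z2⟩ := mem_filter.1 hz
        rw [hH] at y2 z2
        refine (d.cop j).symm.dvd_of_dvd_mul_left ⟨h z - h y, ?_⟩
        beta_reduce at y2 z2
        linarith
    obtain ⟨a1, a2⟩ := mem_filter.1 ha
    obtain ⟨b1, b2⟩ := mem_filter.1 hb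
    have c0 : (((S.filter fun ν => H ν = x).card : ℝ) - 1) * d.B j ≤ b - a := by
      exact_mod_cast hab
    generalize ((S.filter fun ν => H ν = x).card : ℝ) = m at c0 ⊢
    have c1 : (b : ℝ) - a ≤ 2 * Y := by
      linarith [(abs_le.1 (hS a a1).1).1, (abs_le.1 (hS b b1).1).2]
    have c2 : ((b : ℝ) - a) * (d.B j * d.γ - d.A j) =
        d.B j * ((h b + d.γ * b) - (h a + d.γ * a)) := by
      have ea := e a
      have eb := e b
      rw [a2] at ea
      rw [b2] at eb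
      linarith
    have c3 : ((b : ℝ) - a) * η ≤ d.B j * (2 * R) := by
      refine (mul_le_mul_of_nonneg_right (le_abs_self _) η0).trans ?_
      rw [hη, ← abs_mul, c2, abs_mul, abs_of_pos B0]
      refine mul_le_mul_of_nonneg_left ((abs_sub _ _).trans ?_) B0.le
      linarith [(hh a a1).1, (hh b b1).1]
    have c4 : (m - 1) * η ≤ 2 * R := by
      refine le_of_mul_le_mul_left ?_ B0
      nlinarith [mul_le_mul_of_nonneg_right c0 η0]
    nlinarith [mul_le_mul_of_nonneg_left (c0.trans c1) hR, mul_le_mul_of_nonneg_left c4 hY]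
  have hs := sum_le_card_nsmul _ _ _ hf
  rw [← sum_mul, ← Nat.cast_sum, ← card_eq_sum_card_image, nsmul_eq_mul] at hs
  have K0 : 0 ≤ R * (2 * Y + d.B j) + Y * (2 * R + η) := by positivity
  have h1 : (S.card : ℝ) ≤ 2 * (R * (2 * Y + d.B j) + Y * (2 * R + η)) := by
    refine le_of_mul_le_mul_right ?_ T0
    nlinarith [mul_le_mul_of_nonneg_right hv K0]
  have h2 := mul_le_mul_of_nonneg_left B1 hR
  have h3 := mul_le_mul_of_nonneg_left happ hY
  rw [mul_one_div] at h3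
  rw [mul_div_assoc]
  linarith

theorem boh_count {j g : ℕ} (hg : 0 < g) (hj : g ≤ 2 ^ (j + 1)) {L : ℝ} (hL : 1 ≤ L)
    (S : Finset ℤ) (hS : ∀ ν ∈ S, |(ν : ℝ)| ≤ 2 ^ (j + 1) / g ∧ d.Boh j ν (L / g)) :
    (S.card : ℝ) ≤ 14 * (2 ^ (j + 1) / g) * L / bt g ^ 8 := by
  have g0 : (0 : ℝ) < g := Nat.cast_pos.2 hg
  have h := d.boh_box j (by positivity) (by positivity) S hS
  have s1 : 1 ≤ bt g ^ 8 := one_le_pow₀ (one_le_bt hg)
  have s2 : (bt g ^ 8) ^ 2 = g := by rw [← pow_mul, bt_pow]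
  have g1 : (g : ℝ) ≤ 2 ^ (j + 1) := by exact_mod_cast hj
  have u1 : ((2 : ℝ) ^ (j / 2)) ^ 2 ≤ 2 ^ (j + 1) := by
    rw [← pow_mul]
    exact pow_le_pow_right₀ one_le_two (by omega)
  have u2 : (2 : ℝ) ^ (j + 1) ≤ (2 * 2 ^ (j / 2)) ^ 2 := by
    rw [← pow_succ', ← pow_mul]
    exact pow_le_pow_right₀ one_le_two (by omega)
  have U0 : (0 : ℝ) < 2 ^ (j / 2) := by positivity
  have P0 : (0 : ℝ) < 2 ^ (j + 1) := by positivity
  generalize (2 : ℝ) ^ (j / 2) = U at *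
  generalize (2 : ℝ) ^ (j + 1) = P at *
  generalize bt g ^ 8 = s at *
  have s0 : 0 < s := by linarith
  have a1 : U * s ≤ P := by
    refine abs_le_of_sq_le_sq' ?_ P0.le |>.2
    rw [mul_pow, s2, sq P]
    exact mul_le_mul u1 g1 g0.le P0.le
  have a2 : s ≤ 2 * U := (abs_le_of_sq_le_sq' (by linarith) (by positivity)).2
  have a3 : s ≤ g := by nlinarith
  have b1 : L / g * (P / g) ≤ P / g * L / s := by
    rw [mul_comm, mul_div_assoc]
    gcongr
  have b2 : L / g * U ≤ P / g * L / s := by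
    rw [le_div_iff₀ s0]
    calc L / g * U * s = L / g * (U * s) := by ring
      _ ≤ L / g * P := by gcongr
      _ = P / g * L := by ring
  have b3 : P / g / U ≤ 2 * (P / g * L / s) := by
    rw [div_le_iff₀ U0]
    have c : 1 ≤ L * (2 * U) / s := by
      rw [le_div_iff₀ s0]
      nlinarith
    calc P / g ≤ P / g * (L * (2 * U) / s) := le_mul_of_one_le_right (by positivity) c
      _ = _ := by ring
  have e1 : 14 * (P / g) * L / s = 14 * (P / g * L / s) := by ring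
  have e2 : 2 * (P / g) / U = 2 * (P / g / U) := by ring
  rw [e2] at h
  rw [e1]
  linarith

theorem Boh.mono {d : Dat} {j : ℕ} {ν : ℤ} {R R2 : ℝ} (h : d.Boh j ν R) (hR : R ≤ R2) :
    d.Boh j ν R2 :=
  h.imp fun _ h => ⟨h.1.trans_le hR, h.2⟩

end Dat

end Vale.Agent.P028
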