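import Vale.Agent.P028.Defs

/-! # P028 CE
Second moment Borel-Cantelli lemma and the full measure trick.
Plan. ce_fin: integrate the pointwise inequality 2 t f - t^2 f^2 <= indicator of the union, where f
is the sum of the indicators (integral_indicator_one, integral_finsetSum). ce: for every n beyond
the eventual range and n >= 1 there is a finset s of indices >= n with S = sum of w >= 1 (not
summable); t = c / (2 C S) gives measure of the union over q >= n at least c^2 / (2C); continuity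
from above (tendsto_measure_iInter_atTop or Antitone.measure_iInter). full: W = the limsup set is
measurable; if theta = measure of Ioo 0 1 minus W is positive, take an open O with
Ioo 0 1 minus W in O in Ioo 0 1 and measure (O minus (Ioo 0 1 minus W)) < theta^2 / (8C)
(MeasurableSet.exists_isOpen_sdiff_lt) and apply ce to E q inter O with c = theta / 2. -/

namespace Vale.Agent.P028
open Finset MeasureTheory
open scoped Classical

theorem ce_fin (F : ℕ → Set ℝ) (hF : ∀ q, MeasurableSet (F q)) (hf : ∀ q, volume (F q) ≠ ⊤)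
    (s : Finset ℕ) (t : ℝ) :
    2 * t * ∑ q ∈ s, volume.real (F q) - t ^ 2 * ∑ q ∈ s, ∑ r ∈ s, volume.real (F q ∩ F r) ≤
      volume.real (⋃ q ∈ s, F q) := by
  have I : ∀ A : Set ℝ, MeasurableSet A → volume A ≠ ⊤ →
      Integrable (A.indicator (1 : ℝ → ℝ)) volume := fun A hA h =>
    (integrable_indicator_iff hA).2 (integrableOn_const h)
  have hU : MeasurableSet (⋃ q ∈ s, F q) := s.measurableSet_biUnion fun q _ => hF q
  have hU' : volume (⋃ q ∈ s, F q) ≠ ⊤ := (measure_biUnion_lt_top s.finite_toSet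
    fun q _ => (hf q).lt_top).ne
  have h2 : ∀ q r, Integrable ((F q ∩ F r).indicator (1 : ℝ → ℝ)) volume := fun q r =>
    I _ ((hF q).inter (hF r)) (ne_top_of_le_ne_top (hf q) (measure_mono Set.inter_subset_left))
  have i1 := integrable_finsetSum s fun q _ => I _ (hF q) (hf q)
  have i2 := integrable_finsetSum s fun q _ => integrable_finsetSum s fun r _ => h2 q r
  have := integral_mono ((i1.const_mul (2 * t)).sub (i2.const_mul (t ^ 2))) (I _ hU hU') fun x => by
    have e : ∑ q ∈ s, ∑ r ∈ s, (F q ∩ F r).indicator (1 : ℝ → ℝ) x =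
        (∑ q ∈ s, (F q).indicator (1 : ℝ → ℝ) x) ^ 2 := by
      simp only [sq, sum_mul_sum, Set.inter_indicator_one, Pi.mul_apply]
    simp only [Pi.sub_apply, e]
    by_cases hx : x ∈ ⋃ q ∈ s, F q
    · rw [Set.indicator_of_mem hx, Pi.one_apply]
      nlinarith [sq_nonneg (t * ∑ q ∈ s, (F q).indicator (1 : ℝ → ℝ) x - 1)]
    · rw [Set.indicator_of_notMem hx, sum_eq_zero fun q hq => Set.indicator_of_notMem
        (fun h => hx (Set.mem_biUnion hq h)) _]
      simp
  simp only [Pi.sub_apply] at this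
  rw [integral_sub (i1.const_mul _) (i2.const_mul _), integral_const_mul, integral_const_mul,
    integral_finsetSum _ fun q _ => I _ (hF q) (hf q),
    integral_finsetSum _ fun q _ => integrable_finsetSum s fun r _ => h2 q r,
    integral_indicator_one hU, sum_congr rfl fun q _ => integral_indicator_one (hF q),
    sum_congr rfl fun q _ => integral_finsetSum _ fun r _ => h2 q r,
    sum_congr rfl fun q _ => sum_congr rfl fun r _ =>
      integral_indicator_one ((hF q).inter (hF r))] at this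
  exact this

theorem ce (F : ℕ → Set ℝ) (hF : ∀ q, MeasurableSet (F q)) {a b : ℝ}
    (hb : ∀ q, F q ⊆ Set.Icc a b) (w : ℕ → ℝ) (w0 : ∀ q, 0 ≤ w q) (hw : ¬ Summable w)
    {c C : ℝ} (hc : 0 < c) (hC : 0 < C) (h1 : ∀ᶠ q in Filter.atTop, c * w q ≤ volume.real (F q))
    (h2 : ∀ s : Finset ℕ, 0 ∉ s → ∑ q ∈ s, ∑ r ∈ s, volume.real (F q ∩ F r) ≤
      C * ((∑ q ∈ s, w q) ^ 2 + ∑ q ∈ s, w q)) :
    c ^ 2 / (2 * C) ≤ volume.real {x | ∀ n, ∃ q, n ≤ q ∧ x ∈ F q} := by
  have fin : ∀ A : Set ℝ, A ⊆ Set.Icc a b → volume A ≠ ⊤ := fun A h =>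
    ne_top_of_le_ne_top measure_Icc_lt_top.ne (measure_mono h)
  obtain ⟨N, hN⟩ := Filter.eventually_atTop.1 h1
  set U : ℕ → Set ℝ := fun n => ⋃ q, ⋃ _ : n ≤ q, F q with hU
  have hUs : ∀ n, U n ⊆ Set.Icc a b := fun n => Set.iUnion₂_subset fun q _ => hb q
  have key : ∀ n, c ^ 2 / (2 * C) ≤ volume.real (U n) := fun n => by
    have h3 : ¬ Summable fun i => w (i + (n + N + 1)) := fun h =>
      hw ((summable_nat_add_iff _).1 h)
    obtain ⟨k, hk⟩ := (((not_summable_iff_tendsto_nat_atTop_of_nonneg fun i => w0 _).1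
      h3).eventually_ge_atTop 1).exists
    set s := (range k).image fun i => i + (n + N + 1) with hs
    have hm : ∀ q ∈ s, n + N + 1 ≤ q := fun q hq => by
      obtain ⟨i, -, rfl⟩ := mem_image.1 hq
      omega
    have hS : 1 ≤ ∑ q ∈ s, w q := by
      rwa [hs, sum_image fun i _ j _ h => by simpa using h]
    have a1 := ce_fin F hF (fun q => fin _ (hb q)) s (c / (2 * C * ∑ q ∈ s, w q))
    have a2 := h2 s fun h => by have := hm 0 h; omega
    have a3 : c * ∑ q ∈ s, w q ≤ ∑ q ∈ s, volume.real (F q) := by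
      rw [mul_sum]
      exact sum_le_sum fun q hq => hN q (by have := hm q hq; omega)
    have a4 : volume.real (⋃ q ∈ s, F q) ≤ volume.real (U n) := measureReal_mono
      (Set.iUnion₂_subset fun q hq x hx => Set.mem_iUnion₂.2 ⟨q, by have := hm q hq; omega, hx⟩)
      (fin _ (hUs n))
    generalize ∑ q ∈ s, w q = S at *
    have hS0 : 0 < S := by linarith
    have b1 := mul_le_mul_of_nonneg_left a3 (by positivity : 0 ≤ 2 * (c / (2 * C * S)))
    have b2 := mul_le_mul_of_nonneg_left (a2.trans (mul_le_mul_of_nonneg_left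
      (by nlinarith : S ^ 2 + S ≤ 2 * S ^ 2) hC.le)) (sq_nonneg (c / (2 * C * S)))
    have b3 : c ^ 2 / (2 * C) =
        2 * (c / (2 * C * S)) * (c * S) - (c / (2 * C * S)) ^ 2 * (C * (2 * S ^ 2)) := by
      field_simp
      ring
    linarith
  have e : {x | ∀ n, ∃ q, n ≤ q ∧ x ∈ F q} = ⋂ n, U n := by
    ext x
    simp [hU]
  have hl := tendsto_measure_iInter_atTop (μ := volume) (s := U)
    (fun n => (MeasurableSet.iUnion fun q => MeasurableSet.iUnion fun _ => hF q).nullMeasurableSet)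
    (fun m n h => Set.iUnion₂_subset fun q hq x hx => Set.mem_iUnion₂.2 ⟨q, h.trans hq, hx⟩)
    ⟨0, fin _ (hUs 0)⟩
  rw [e]
  exact ge_of_tendsto' ((ENNReal.tendsto_toReal
    (fin _ ((Set.iInter_subset _ 0).trans (hUs 0)))).comp hl) key

theorem full (E : ℕ → Set ℝ) (hE : ∀ q, MeasurableSet (E q)) {a b : ℝ}
    (hb : ∀ q, E q ⊆ Set.Icc a b) (w : ℕ → ℝ) (w0 : ∀ q, 0 ≤ w q) (hw : ¬ Summable w)
    {C : ℝ} (hC : 0 < C) (h1 : ∀ O : Set ℝ, IsOpen O → O ⊆ Set.Ioo 0 1 →
      ∀ᶠ q in Filter.atTop, volume.real O / 2 * w q ≤ volume.real (E q ∩ O))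
    (h2 : ∀ s : Finset ℕ, 0 ∉ s → ∑ q ∈ s, ∑ r ∈ s, volume.real (E q ∩ E r) ≤
      C * ((∑ q ∈ s, w q) ^ 2 + ∑ q ∈ s, w q)) :
    volume (Set.Ioo (0 : ℝ) 1 \ {x | ∀ n, ∃ q, n ≤ q ∧ x ∈ E q}) = 0 := by
  set W := {x | ∀ n, ∃ q, n ≤ q ∧ x ∈ E q} with hW
  have hWm : MeasurableSet W := by
    have e : W = ⋂ n, ⋃ q, ⋃ _ : n ≤ q, E q := by
      ext x
      simp [hW]
    rw [e]
    exact .iInter fun n => .iUnion fun q => .iUnion fun _ => hE q
  have fin : ∀ A : Set ℝ, A ⊆ Set.Ioo 0 1 → volume A ≠ ⊤ := fun A h =>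
    ne_top_of_le_ne_top measure_Ioo_lt_top.ne (measure_mono h)
  by_contra h0
  have hθ : 0 < volume.real (Set.Ioo (0 : ℝ) 1 \ W) :=
    ENNReal.toReal_pos h0 (fin _ Set.sdiff_subset)
  set θ := volume.real (Set.Ioo (0 : ℝ) 1 \ W) with hθ'
  obtain ⟨O, h3, h4, -, h5⟩ := (measurableSet_Ioo.diff hWm).exists_isOpen_sdiff_lt
    (fin _ Set.sdiff_subset) (ε := ENNReal.ofReal ((θ / 2) ^ 2 / (2 * C)))
    (ENNReal.ofReal_pos.2 (by positivity)).ne'
  have h6 : θ ≤ volume.real (O ∩ Set.Ioo 0 1) :=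
    measureReal_mono (Set.subset_inter h3 Set.sdiff_subset) (fin _ Set.inter_subset_right)
  have h7 := ce (fun q => E q ∩ (O ∩ Set.Ioo 0 1))
    (fun q => (hE q).inter (h4.inter isOpen_Ioo).measurableSet)
    (fun q => Set.inter_subset_left.trans (hb q)) w w0 hw (c := θ / 2) (by positivity) hC
    ((h1 _ (h4.inter isOpen_Ioo) Set.inter_subset_right).mono fun q hq =>
      (mul_le_mul_of_nonneg_right (by linarith) (w0 q)).trans hq)
    fun s hs => (sum_le_sum fun q _ => sum_le_sum fun r _ => measureReal_mono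
      (Set.inter_subset_inter Set.inter_subset_left Set.inter_subset_left)
      (ne_top_of_le_ne_top measure_Icc_lt_top.ne
        (measure_mono (Set.inter_subset_left.trans (hb q))))).trans (h2 s hs)
  refine absurd (h7.trans (measureReal_mono (s₂ := O \ (Set.Ioo 0 1 \ W)) (fun x hx => ?_)
    (ne_top_of_lt h5))) (not_le.2 (ENNReal.toReal_lt_of_lt_ofReal h5))
  obtain ⟨q, -, hq⟩ := hx 0
  exact ⟨hq.2.1, fun h => h.2 fun n => (hx n).imp fun q hq => ⟨hq.1, hq.2.1⟩⟩

end Vale.Agent.P028
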