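import Vale.Agent.P028.Defs

/-! # P028 Count
Counting pairs of numerators.
Plan. cntA: fibre over h = a r1 - b q1, an integer in an open interval of length 2R (at most
2R + 1 values); for fixed h the map (a, b) -> a / q1 is injective (q1 | (a - a') r1) with values
in Ico 0 g. cntP: the map ((a, b), k) -> (a + k g q1, b + k g r1) is injective on S x range P and
keeps h, u, v; its image T has 0 <= a < g q1 P. Fibre T over (a % P, b % P), which lies in the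
product of the two filtered sets; on a fibre (a, b) -> (a / P, b / P) is injective and cntA applies
with radius R / P and shift (a0 r1 - b0 q1 + beta) / P. -/

namespace Vale.Agent.P028
open Finset MeasureTheory
open scoped Classical

theorem cntA {g q1 r1 : ℕ} (hq : 0 < q1) (hc : q1.Coprime r1) {β R : ℝ} (hR : 0 ≤ R)
    (S : Finset (ℤ × ℤ))
    (hS : ∀ x ∈ S, 0 ≤ x.1 ∧ x.1 < (g * q1 : ℕ) ∧ |(x.1 : ℝ) * r1 - x.2 * q1 + β| < R) :
    (S.card : ℝ) ≤ g * (2 * R + 1) := by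
  have hq' : (0 : ℤ) < q1 := by exact_mod_cast hq
  have hc' : IsCoprime (q1 : ℤ) (r1 : ℤ) := Nat.isCoprime_iff_coprime.2 hc
  have h1 : S.card ≤ (Ioo ⌊-β - R⌋ ⌈-β + R⌉ ×ˢ Ico (0 : ℤ) g).card := by
    refine card_le_card_of_injOn (fun x => (x.1 * r1 - x.2 * q1, x.1 / q1)) (fun x hx => ?_)
      fun x hx y hy e => ?_
    · obtain ⟨a0, a1, a2⟩ := hS x hx
      obtain ⟨b1, b2⟩ := abs_lt.1 a2
      simp only [coe_product, Set.mem_prod, mem_coe, mem_Ioo, mem_Ico]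
      refine ⟨⟨Int.floor_lt.2 ?_, Int.lt_ceil.2 ?_⟩, Int.ediv_nonneg a0 hq'.le,
        Int.ediv_lt_of_lt_mul hq' ?_⟩
      · push_cast; linarith
      · push_cast; linarith
      · exact_mod_cast a1
    · simp only [Prod.mk.injEq] at e
      obtain ⟨e1, e2⟩ := e
      have hd : (q1 : ℤ) ∣ (y.1 - x.1) * r1 := ⟨y.2 - x.2, by linear_combination -e1⟩
      have hm : x.1 % q1 = y.1 % q1 := Int.modEq_iff_dvd.2 (hc'.dvd_of_dvd_mul_right hd)
      have e3 : x.1 = y.1 := by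
        rw [← Int.ediv_mul_add_emod x.1 q1, ← Int.ediv_mul_add_emod y.1 q1, e2, hm]
      refine Prod.ext e3 (mul_right_cancel₀ hq'.ne' ?_)
      rw [e3] at e1
      linarith
  rw [card_product, Int.card_Ioo, Int.card_Ico] at h1
  have h2 : (((⌈-β + R⌉ - ⌊-β - R⌋ - 1).toNat : ℕ) : ℝ) ≤ 2 * R + 1 := by
    rcases le_total (⌈-β + R⌉ - ⌊-β - R⌋ - 1) 0 with h | h
    · rw [Int.toNat_eq_zero.2 h]
      push_cast
      linarith
    · have e : (((⌈-β + R⌉ - ⌊-β - R⌋ - 1).toNat : ℕ) : ℝ) =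
          ((⌈-β + R⌉ - ⌊-β - R⌋ - 1 : ℤ) : ℝ) := by
        rw [← Int.cast_natCast, Int.toNat_of_nonneg h]
      rw [e]
      push_cast
      linarith [Int.ceil_lt_add_one (-β + R), Int.sub_one_lt_floor (-β - R)]
  have h3 : (S.card : ℝ) ≤ ((⌈-β + R⌉ - ⌊-β - R⌋ - 1).toNat : ℕ) * (g : ℝ) := by
    simp only [sub_zero, Int.toNat_natCast] at h1
    exact_mod_cast h1
  calc (S.card : ℝ) ≤ _ := h3
    _ ≤ (2 * R + 1) * g := by gcongr
    _ = _ := mul_comm _ _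

theorem cnt_fib {g q1 r1 P : ℕ} (hq : 0 < q1) (hc : q1.Coprime r1) (hP : 0 < P) {β R : ℝ}
    (hR : 0 ≤ R) (T : Finset (ℤ × ℤ)) (a0 b0 : ℤ)
    (hT : ∀ x ∈ T, 0 ≤ x.1 ∧ x.1 < (g * q1 : ℕ) * (P : ℤ) ∧
      |(x.1 : ℝ) * r1 - x.2 * q1 + β| < R ∧ x.1 % P = a0 ∧ x.2 % P = b0) :
    (T.card : ℝ) ≤ g * (2 * (R / P) + 1) := by
  have hP' : (0 : ℤ) < P := by exact_mod_cast hP
  have hPr : (0 : ℝ) < P := by exact_mod_cast hP
  have hinj : Set.InjOn (fun x : ℤ × ℤ => (x.1 / (P : ℤ), x.2 / (P : ℤ))) T := by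
    intro x hx y hy e
    simp only [Prod.mk.injEq] at e
    obtain ⟨-, -, -, x1, x2⟩ := hT x hx
    obtain ⟨-, -, -, y1, y2⟩ := hT y hy
    refine Prod.ext ?_ ?_
    · rw [← Int.ediv_mul_add_emod x.1 P, ← Int.ediv_mul_add_emod y.1 P, e.1, x1, y1]
    · rw [← Int.ediv_mul_add_emod x.2 P, ← Int.ediv_mul_add_emod y.2 P, e.2, x2, y2]
  rw [← card_image_of_injOn hinj]
  refine cntA hq hc (β := ((a0 : ℝ) * r1 - b0 * q1 + β) / P) (by positivity) _ fun y hy => ?_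
  obtain ⟨x, hx, rfl⟩ := mem_image.1 hy
  obtain ⟨x0, x1, x2, x3, x4⟩ := hT x hx
  refine ⟨Int.ediv_nonneg x0 hP'.le, Int.ediv_lt_of_lt_mul hP' x1, ?_⟩
  have e1 : (x.1 : ℝ) = ((x.1 / P : ℤ) : ℝ) * P + a0 := by
    rw [← x3]
    exact_mod_cast (Int.ediv_mul_add_emod x.1 P).symm
  have e2 : (x.2 : ℝ) = ((x.2 / P : ℤ) : ℝ) * P + b0 := by
    rw [← x4]
    exact_mod_cast (Int.ediv_mul_add_emod x.2 P).symm
  have e3 : ((x.1 / P : ℤ) : ℝ) * r1 - ((x.2 / P : ℤ) : ℝ) * q1 +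
      ((a0 : ℝ) * r1 - b0 * q1 + β) / P = ((x.1 : ℝ) * r1 - x.2 * q1 + β) / P := by
    generalize ((x.1 / P : ℤ) : ℝ) = s at e1 ⊢
    generalize ((x.2 / P : ℤ) : ℝ) = t at e2 ⊢
    rw [e1, e2]
    field_simp
    ring
  show |((x.1 / P : ℤ) : ℝ) * r1 - ((x.2 / P : ℤ) : ℝ) * q1 +
      ((a0 : ℝ) * r1 - b0 * q1 + β) / P| < R / P
  rw [e3, abs_div, abs_of_pos hPr]
  exact div_lt_div_of_pos_right x2 hPr

theorem cntP {g q1 r1 P : ℕ} (hq : 0 < q1) (hc : q1.Coprime r1) (hP : 0 < P) {β R : ℝ}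
    (hR : 0 ≤ R) (u v : ℤ → Prop) (u1 : ∀ a k, u a → u (a + k * (g * q1 : ℕ)))
    (u2 : ∀ a k, u a → u (a + k * P)) (v1 : ∀ b k, v b → v (b + k * (g * r1 : ℕ)))
    (v2 : ∀ b k, v b → v (b + k * P)) (S : Finset (ℤ × ℤ))
    (hS : ∀ x ∈ S, 0 ≤ x.1 ∧ x.1 < (g * q1 : ℕ) ∧ |(x.1 : ℝ) * r1 - x.2 * q1 + β| < R ∧
      u x.1 ∧ v x.2) :
    (P : ℝ) * S.card ≤ (((Ico (0 : ℤ) P).filter u).card : ℝ) * ((Ico (0 : ℤ) P).filter v).card *
      (g * (2 * (R / P) + 1)) := by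
  have hP' : (0 : ℤ) < P := by exact_mod_cast hP
  set N : ℤ := ((g * q1 : ℕ) : ℤ) with hN
  set M : ℤ := ((g * r1 : ℕ) : ℤ) with hM
  let φ : (ℤ × ℤ) × ℤ → ℤ × ℤ := fun y => (y.1.1 + y.2 * N, y.1.2 + y.2 * M)
  have hinj : Set.InjOn φ (S ×ˢ Ico (0 : ℤ) P : Finset _) := by
    intro x hx y hy e
    obtain ⟨x0, x1, -⟩ := hS _ (mem_product.1 hx).1
    obtain ⟨y0, y1, -⟩ := hS _ (mem_product.1 hy).1
    simp only [φ, Prod.mk.injEq] at e
    have hN0 : 0 < N := x0.trans_lt x1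
    have k1 : x.2 = y.2 := by
      have a1 : (x.1.1 + x.2 * N) / N = x.2 := by
        rw [Int.add_mul_ediv_right _ _ hN0.ne', Int.ediv_eq_zero_of_lt x0 x1, zero_add]
      have a2 : (y.1.1 + y.2 * N) / N = y.2 := by
        rw [Int.add_mul_ediv_right _ _ hN0.ne', Int.ediv_eq_zero_of_lt y0 y1, zero_add]
      rw [← a1, ← a2, e.1]
    rw [k1] at e
    exact Prod.ext (Prod.ext (add_right_cancel e.1) (add_right_cancel e.2)) k1
  set T := (S ×ˢ Ico (0 : ℤ) P).image φ with hTdef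
  have hcard : T.card = S.card * P := by
    rw [hTdef, card_image_of_injOn hinj, card_product, Int.card_Ico]
    simp
  have hT : ∀ x ∈ T, 0 ≤ x.1 ∧ x.1 < N * (P : ℤ) ∧ |(x.1 : ℝ) * r1 - x.2 * q1 + β| < R ∧
      u x.1 ∧ v x.2 := by
    intro x hx
    obtain ⟨y, hy, rfl⟩ := mem_image.1 hx
    obtain ⟨y0, y1, y2, y3, y4⟩ := hS _ (mem_product.1 hy).1
    obtain ⟨k0, k1⟩ := mem_Ico.1 (mem_product.1 hy).2
    have hN0 : 0 < N := y0.trans_lt y1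
    refine ⟨by simp only [φ]; positivity, ?_, ?_, u1 _ _ y3, v1 _ _ y4⟩
    · simp only [φ]
      nlinarith
    · simp only [φ, hN, hM]
      push_cast
      convert y2 using 2
      ring
  have hmap : Set.MapsTo (fun x : ℤ × ℤ => (x.1 % (P : ℤ), x.2 % (P : ℤ))) T
      (((Ico (0 : ℤ) P).filter u) ×ˢ ((Ico (0 : ℤ) P).filter v) : Finset _) := by
    intro x hx
    obtain ⟨-, -, -, x3, x4⟩ := hT x hx
    simp only [coe_product, Set.mem_prod, mem_coe, mem_filter, mem_Ico]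
    refine ⟨⟨⟨Int.emod_nonneg _ hP'.ne', Int.emod_lt_of_pos _ hP'⟩, ?_⟩,
      ⟨Int.emod_nonneg _ hP'.ne', Int.emod_lt_of_pos _ hP'⟩, ?_⟩
    · have := u2 _ (-(x.1 / P)) x3
      rwa [show x.1 + -(x.1 / P) * P = x.1 % P by
        linarith [Int.ediv_mul_add_emod x.1 P]] at this
    · have := v2 _ (-(x.2 / P)) x4
      rwa [show x.2 + -(x.2 / P) * P = x.2 % P by
        linarith [Int.ediv_mul_add_emod x.2 P]] at this
  have hsum := card_eq_sum_card_fiberwise hmap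
  have e1 : (P : ℝ) * S.card = T.card := by
    rw [hcard]; push_cast; ring
  rw [e1, hsum, Nat.cast_sum, ← Nat.cast_mul, ← card_product, ← nsmul_eq_mul]
  refine sum_le_card_nsmul _ _ _ fun b _ => ?_
  refine cnt_fib hq hc hP hR _ b.1 b.2 (β := β) fun x hx => ?_
  obtain ⟨hx1, hx2⟩ := mem_filter.1 hx
  obtain ⟨x0, x1, x2, -⟩ := hT x hx1
  exact ⟨x0, x1, x2, congrArg Prod.fst hx2, congrArg Prod.snd hx2⟩

end Vale.Agent.P028
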