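import Mathlib

/-! # P028: weak inhomogeneous Erdos-Vaaler theorem, definitions. Overview: notes/P028.md -/

namespace Vale.Agent.P028
open Finset

/-- submultiplicative weight with all moments finite -/
noncomputable def Psi (n : ℕ) : ℝ :=
  Real.exp (∑ p ∈ n.primeFactors, (p : ℝ) ^ (-(1 / 32 : ℝ)))

noncomputable def bt (g : ℕ) : ℝ := (g : ℝ) ^ (1 / 16 : ℝ)

/-- harmonic sum of the prime factors above `v` -/
noncomputable def Lt (v n : ℕ) : ℝ := ∑ p ∈ n.primeFactors with v < p, (1 / p : ℝ)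

/-- shift, approximation function and a Dirichlet approximation `A j / B j` for every dyadic
scale `j` -/
structure Dat where
  γ : ℝ
  ψ : ℕ → ℝ
  A : ℕ → ℤ
  B : ℕ → ℕ
  ψ0 : ∀ q, 0 ≤ ψ q
  ψ1 : ∀ q : ℕ, (q : ℝ) * ψ q ≤ 1 / 4
  cop : ∀ j, IsCoprime (A j) (B j : ℤ)
  B0 : ∀ j, 0 < B j
  B1 : ∀ j, B j ≤ 2 ^ (j / 2)
  app : ∀ j, |(B j : ℝ) * γ - A j| ≤ 1 / 2 ^ (j / 2)

namespace Dat
variable (d : Dat)

def lin (q : ℕ) (a : ℤ) : ℤ := a * d.B (Nat.log 2 q) + d.A (Nat.log 2 q)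

/-- admissible numerators -/
noncomputable def sv (q : ℕ) : Finset ℤ :=
  (Ico (0 : ℤ) q).filter fun a => ∀ p ∈ q.primeFactors, ¬ (p : ℤ) ∣ d.lin q a

def E (q : ℕ) : Set ℝ := {x | ∃ a ∈ d.sv q, |q * x - a - d.γ| < d.ψ q}

noncomputable def rho (q : ℕ) : ℝ :=
  ∏ p ∈ q.primeFactors with ¬ p ∣ d.B (Nat.log 2 q), (1 - 1 / p : ℝ)

noncomputable def rhv (v q : ℕ) : ℝ :=
  ∏ p ∈ q.primeFactors with p ≤ v ∧ ¬ p ∣ d.B (Nat.log 2 q), (1 - 1 / p : ℝ)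

noncomputable def w (q : ℕ) : ℝ := d.rho q * d.ψ q

noncomputable def D (q r : ℕ) : ℝ :=
  max ((r / q.gcd r : ℕ) * d.ψ q) ((q / q.gcd r : ℕ) * d.ψ r)

open Classical in
/-- pairs of numerators whose intervals can meet -/
noncomputable def Prs (q r : ℕ) : Finset (ℤ × ℤ) :=
  (d.sv q ×ˢ d.sv r).filter fun x =>
    |(x.1 : ℝ) * (r / q.gcd r : ℕ) - x.2 * (q / q.gcd r : ℕ) +
      d.γ * ((r / q.gcd r : ℕ) - (q / q.gcd r : ℕ))| < 2 * d.D q r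

/-- bound for the overlap of `E q` and `E r` -/
noncomputable def ov (q r : ℕ) : ℝ := 2 * min (d.ψ q / q) (d.ψ r / r) * (d.Prs q r).card

/-- `γ ν` is within `R` of an integer, by a vector not parallel to the approximation of scale
`j` -/
def Boh (j : ℕ) (ν : ℤ) (R : ℝ) : Prop :=
  ∃ h : ℤ, |(h : ℝ) + d.γ * ν| < R ∧ h * d.B j + d.A j * ν ≠ 0

/-- the Bohr condition of the pair `q < r` -/
def BP (q r : ℕ) : Prop :=
  d.Boh (Nat.log 2 r) (((r / q.gcd r : ℕ) : ℤ) - (q / q.gcd r : ℕ)) ((r : ℝ) / q / q.gcd r)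

open Classical in
noncomputable def bad (q r : ℕ) : ℝ :=
  if d.BP q r then
    (Psi q * Psi r) ^ 3 * min (d.ψ q / (q / q.gcd r : ℕ)) (d.ψ r / (r / q.gcd r : ℕ)) else 0

end Dat

theorem one_le_Psi (n : ℕ) : 1 ≤ Psi n :=
  Real.one_le_exp (sum_nonneg fun _ _ => Real.rpow_nonneg (Nat.cast_nonneg _) _)

theorem Psi_pos (n : ℕ) : 0 < Psi n := Real.exp_pos _

theorem one_le_bt {g : ℕ} (hg : 0 < g) : 1 ≤ bt g :=
  Real.one_le_rpow (Nat.one_le_cast.2 hg) (by norm_num)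

theorem bt_pow (g : ℕ) : bt g ^ 16 = g := by
  rw [bt, ← Real.rpow_natCast, ← Real.rpow_mul (Nat.cast_nonneg _)]
  norm_num

theorem Psi_mul (a b : ℕ) : Psi (a * b) ≤ Psi a * Psi b := by
  rw [Psi, Psi, Psi, ← Real.exp_add, Real.exp_le_exp]
  have h0 : ∀ s : Finset ℕ, 0 ≤ ∑ p ∈ s, (p : ℝ) ^ (-(1 / 32 : ℝ)) := fun s =>
    sum_nonneg fun _ _ => Real.rpow_nonneg (Nat.cast_nonneg _) _
  rcases eq_or_ne a 0 with rfl | ha
  · simpa using h0 _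
  rcases eq_or_ne b 0 with rfl | hb
  · simpa using h0 _
  rw [Nat.primeFactors_mul ha hb, ← sum_union_inter]
  linarith [h0 (a.primeFactors ∩ b.primeFactors)]

end Vale.Agent.P028
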