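import Vale.Agent.P028.Defs

/-! # P028 Div
Divisor sums.
Plan. Psi_div: F g = Psi g ^ K / bt g satisfies F (a b) <= F a * F b, so S n = sum of F over the
divisors is submultiplicative (Nat.divisors_mul, sum over a product finset, sum_image_le or
card-free version); S (p^k) <= 1 + c p^(-1/16) with c = exp K / (1 - 2^(-1/16)) (geometric series,
Nat.divisors_prime_pow); induction (Nat.recOnPosPrimePosCoprime) gives S n <= exp (c * sum over
p | n of p^(-1/16)); c p^(-1/16) <= p^(-1/32) as soon as p >= c^32, the other primes contribute at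
most c * (c^32 + 1). four_pow: 4 <= sqrt p for p >= 16, Nat.prod_primeFactors_dvd. -/

namespace Vale.Agent.P028
open Finset MeasureTheory
open scoped Classical

theorem div_small (s : Finset ℕ) (N : ℕ) {c : ℝ} (hc : 0 ≤ c) :
    ∑ p ∈ s, (if p < N then c else 0) ≤ N * c := by
  rw [← sum_filter, sum_const, nsmul_eq_mul]
  refine mul_le_mul_of_nonneg_right (Nat.cast_le.2 ?_) hc
  exact (card_le_card fun p hp => mem_range.2 (mem_filter.1 hp).2).trans_eq (card_range N)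

theorem div_bt0 (g : ℕ) : 0 ≤ bt g := Real.rpow_nonneg (Nat.cast_nonneg _) _

theorem div_F0 (K g : ℕ) : 0 ≤ Psi g ^ K / bt g := div_nonneg (pow_pos (Psi_pos g) K).le (div_bt0 g)

theorem div_mul (K a b : ℕ) : ∑ g ∈ (a * b).divisors, Psi g ^ K / bt g ≤
    (∑ g ∈ a.divisors, Psi g ^ K / bt g) * ∑ g ∈ b.divisors, Psi g ^ K / bt g := by
  rw [Nat.divisors_mul, mul_def, sum_mul_sum, ← sum_product']
  refine (sum_image_le_of_nonneg fun u _ => div_F0 K u).trans (sum_le_sum fun x _ => ?_)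
  rw [div_mul_div_comm, ← mul_pow, bt, Nat.cast_mul,
    Real.mul_rpow (Nat.cast_nonneg _) (Nat.cast_nonneg _)]
  exact div_le_div_of_nonneg_right (pow_le_pow_left₀ (Psi_pos _).le (Psi_mul _ _) K)
    (mul_nonneg (div_bt0 _) (div_bt0 _))

theorem div_pp (K : ℕ) : ∃ c : ℝ, 0 ≤ c ∧ ∀ p k : ℕ, p.Prime →
    ∑ g ∈ (p ^ k).divisors, Psi g ^ K / bt g ≤ Real.exp (c * (bt p)⁻¹) := by
  have h0 : 0 ≤ (bt 2)⁻¹ := inv_nonneg.2 (div_bt0 2)
  have h1 : (bt 2)⁻¹ < 1 := inv_lt_one_of_one_lt₀ (Real.one_lt_rpow (by norm_num) (by norm_num))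
  refine ⟨Real.exp 1 ^ K * ∑' i, (bt 2)⁻¹ ^ i,
    mul_nonneg (by positivity) (tsum_nonneg fun _ => pow_nonneg h0 _), fun p k hp => ?_⟩
  have h2 : 0 ≤ (bt p)⁻¹ := inv_nonneg.2 (div_bt0 p)
  have h3 : (bt p)⁻¹ ≤ (bt 2)⁻¹ := inv_anti₀ (zero_lt_one.trans_le (one_le_bt two_pos))
    (Real.rpow_le_rpow (Nat.cast_nonneg _) (Nat.cast_le.2 hp.two_le) (by norm_num))
  refine le_trans ?_ (Real.add_one_le_exp _)
  rw [Nat.sum_divisors_prime_pow hp, sum_range_succ']
  refine add_le_add ?_ (by simp [Psi, bt])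
  refine le_trans ?_ (mul_le_mul_of_nonneg_right (mul_le_mul_of_nonneg_left
    ((summable_geometric_of_lt_one h0 h1).sum_le_tsum (range k) fun _ _ => pow_nonneg h0 _)
    (by positivity)) h2)
  rw [mul_sum, sum_mul]
  refine sum_le_sum fun i _ => ?_
  have e : bt (p ^ (i + 1)) = bt p ^ (i + 1) := by
    rw [bt, bt, Nat.cast_pow, Real.rpow_pow_comm (Nat.cast_nonneg _)]
  have h4 : Psi (p ^ (i + 1)) ≤ Real.exp 1 := by
    rw [Psi, Nat.primeFactors_prime_pow i.succ_ne_zero hp, sum_singleton]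
    exact Real.exp_le_exp.2 (Real.rpow_le_one_of_one_le_of_nonpos (Nat.one_le_cast.2 hp.one_le)
      (by norm_num))
  rw [e, div_eq_mul_inv, ← inv_pow, pow_succ, mul_assoc]
  exact mul_le_mul (pow_le_pow_left₀ (Psi_pos _).le h4 K) (mul_le_mul_of_nonneg_right
    (pow_le_pow_left₀ h2 h3 i) h2) (by positivity) (by positivity)

theorem Psi_div (K : ℕ) : ∃ C : ℝ, 0 < C ∧ ∀ n : ℕ, 0 < n →
    ∑ g ∈ n.divisors, Psi g ^ K / bt g ≤ C * Psi n := by
  obtain ⟨c, hc, h⟩ := div_pp K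
  have h1 : ∀ n : ℕ, ∑ g ∈ n.divisors, Psi g ^ K / bt g ≤
      Real.exp (∑ p ∈ n.primeFactors, c * (bt p)⁻¹) := fun n => by
    induction n using Nat.recOnPosPrimePosCoprime with
    | prime_pow p k hp hk =>
      rw [Nat.primeFactors_prime_pow hk.ne' hp, sum_singleton]
      exact h p k hp
    | zero => simp
    | one => simp [Psi, bt]
    | coprime a b _ _ hab ha hb =>
      rw [hab.primeFactors_mul, sum_union hab.disjoint_primeFactors, Real.exp_add]
      exact (div_mul K a b).trans (mul_le_mul ha hb (sum_nonneg fun g _ => div_F0 K g)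
        (Real.exp_pos _).le)
  have h2 := ((tendsto_rpow_neg_atTop (y := 1 / 32) (by norm_num)).comp
    tendsto_natCast_atTop_atTop).const_mul c
  rw [mul_zero] at h2
  obtain ⟨N, hN⟩ := Filter.eventually_atTop.1 (h2.eventually_le_const zero_lt_one)
  refine ⟨Real.exp (N * c), Real.exp_pos _, fun n _ => (h1 n).trans ?_⟩
  rw [Psi, ← Real.exp_add, Real.exp_le_exp]
  refine le_trans ?_ (add_le_add_left (div_small n.primeFactors N hc) _)
  rw [← sum_add_distrib]
  refine sum_le_sum fun p hp => ?_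
  have p0 := Nat.pos_of_mem_primeFactors hp
  have y0 : 0 ≤ (p : ℝ) ^ (-(1 / 32 : ℝ)) := by positivity
  split_ifs with hpN
  · exact le_add_of_le_of_nonneg (mul_le_of_le_one_right hc (inv_le_one_of_one_le₀ (one_le_bt p0)))
      y0
  · have e : (bt p)⁻¹ = (p : ℝ) ^ (-(1 / 32 : ℝ)) * (p : ℝ) ^ (-(1 / 32 : ℝ)) := by
      rw [bt, ← Real.rpow_neg (Nat.cast_nonneg _), ← Real.rpow_add (Nat.cast_pos.2 p0)]
      norm_num
    rw [e, zero_add, ← mul_assoc]
    exact mul_le_of_le_one_left y0 (hN p (not_lt.1 hpN))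

theorem four_pow : ∃ C : ℝ, 0 < C ∧ ∀ n : ℕ, 0 < n →
    (4 : ℝ) ^ n.primeFactors.card ≤ C * Real.sqrt n := by
  refine ⟨Real.exp ((16 : ℕ) * 3), Real.exp_pos _, fun n hn => ?_⟩
  have h1 : √(∏ p ∈ n.primeFactors, (p : ℝ)) ≤ √n := Real.sqrt_le_sqrt
    ((Nat.cast_prod _ _).symm.trans_le (Nat.cast_le.2 (Nat.le_of_dvd hn n.prod_primeFactors_dvd)))
  refine le_trans ?_ (mul_le_mul (Real.exp_le_exp.2 (div_small n.primeFactors 16 (by norm_num))) h1
    (Real.sqrt_nonneg _) (Real.exp_pos _).le)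
  rw [Real.exp_sum, Real.sqrt_prod _ fun _ _ => Nat.cast_nonneg _, ← prod_mul_distrib,
    ← prod_const]
  refine prod_le_prod (fun _ _ => by norm_num) fun p hp => ?_
  split_ifs with h
  · have := Real.add_one_le_exp 3
    exact le_trans (by linarith) (le_mul_of_one_le_right (Real.exp_pos _).le
      (Real.one_le_sqrt.2 (Nat.one_le_cast.2 (Nat.pos_of_mem_primeFactors hp))))
  · rw [Real.exp_zero, one_mul]
    refine Real.le_sqrt_of_sq_le ?_
    exact_mod_cast not_lt.1 h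

end Vale.Agent.P028
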