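import Vale.Agent.P028.Mom
import Vale.Agent.P028.Div
import Vale.Agent.P028.Bohr

/-! # P028 Far
The two sums with the larger denominator fixed.
Plan. Split t by g = gcd q r (sum_fiberwise_of_maps_to into r.divisors), r1 = r / g.
far: on the fibre q <= g * (r1 / (bt g * Psi r ^ 6)); mult_sum 3 bounds the fibre by
C Psi g ^ 3 / bt g / Psi r ^ 3; Psi_div 3. near_r: j = log 2 r, 2^(j+1) / g <= 2 r1, the map
q -> r1 - q / g is injective on the fibre, boh_count with L = bt g * Psi r ^ 6 (Boh.mono) gives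
card <= 28 r1 Psi r ^ 6 / bt g ^ 7; second part of mult_sum 15 with L = bt g ^ 4, x = r1 bounds the
fibre by C Psi g ^ 15 / bt g / Psi r ^ 3; Psi_div 15. -/

namespace Vale.Agent.P028
open Finset MeasureTheory
open scoped Classical

theorem far_div {C : ℝ} (hC : 0 ≤ C) {K : ℕ} {C2 : ℝ} {r : ℕ} (hr : 0 < r)
    (h2 : ∑ g ∈ r.divisors, Psi g ^ K / bt g ≤ C2 * Psi r) (t : Finset ℕ) (F : ℕ → ℝ)
    (h : ∀ g ∈ r.divisors, ∑ q ∈ t with q.gcd r = g, F q ≤ C / Psi r ^ 3 * (Psi g ^ K / bt g)) :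
    ∑ q ∈ t, F q ≤ C * C2 / Psi r ^ 2 := by
  have pr := Psi_pos r
  rw [← sum_fiberwise_of_maps_to (t := r.divisors) (g := fun q => q.gcd r)
    fun q _ => Nat.mem_divisors.2 ⟨Nat.gcd_dvd_right q r, hr.ne'⟩]
  refine (sum_le_sum h).trans ?_
  rw [← mul_sum]
  refine (mul_le_mul_of_nonneg_left h2 (by positivity)).trans_eq ?_
  field_simp

theorem far : ∃ C : ℝ, 0 < C ∧ ∀ r : ℕ, ∀ t : Finset ℕ,
    (∀ q ∈ t, 0 < q ∧ q < r ∧ bt (q.gcd r) * Psi r ^ 6 ≤ (r : ℝ) / q) →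
    ∑ q ∈ t, (Psi q * Psi r) ^ 3 / (r / q.gcd r : ℕ) ≤ C / Psi r ^ 2 := by
  obtain ⟨C1, c1, h1⟩ := mult_sum 3
  obtain ⟨C2, c2, h2⟩ := Psi_div 3
  refine ⟨C1 * C2, by positivity, fun r t ht => ?_⟩
  have pr := Psi_pos r
  rcases Nat.eq_zero_or_pos r with rfl | hr
  · rw [eq_empty_of_forall_notMem fun q hq => absurd (ht q hq).2.1 (Nat.not_lt_zero q), sum_empty]
    positivity
  refine far_div c1.le hr (h2 r hr) t _ fun g hg => ?_
  have g0 := Nat.pos_of_mem_divisors hg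
  have g1 : (0 : ℝ) < g := Nat.cast_pos.2 g0
  have r0 : (0 : ℝ) < r := Nat.cast_pos.2 hr
  have b1 := one_le_bt g0
  have e1 : ((r / g : ℕ) : ℝ) = r / g := Nat.cast_div (Nat.dvd_of_mem_divisors hg) g1.ne'
  have h3 := (h1 g g0 (r / g / (bt g * Psi r ^ 6)) (by positivity) (t.filter fun q => q.gcd r = g)
    fun q hq => by
      obtain ⟨h4, h5⟩ := mem_filter.1 hq
      obtain ⟨q0, -, h6⟩ := ht q h4
      refine ⟨q0, h5 ▸ Nat.gcd_dvd_left q r, ?_⟩
      rw [h5, le_div_iff₀ (Nat.cast_pos.2 q0)] at h6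
      rw [← mul_div_assoc, mul_div_cancel₀ _ g1.ne', le_div_iff₀ (by positivity)]
      linarith).1
  calc _ = Psi r ^ 3 / (r / g) * ∑ q ∈ t with q.gcd r = g, Psi q ^ 3 := by
        rw [mul_sum]
        exact sum_congr rfl fun q hq => by rw [(mem_filter.1 hq).2, e1]; ring
    _ ≤ Psi r ^ 3 / (r / g) * (C1 * Psi g ^ 3 * (r / g / (bt g * Psi r ^ 6))) := by gcongr
    _ = _ := by field_simp

theorem near_r : ∃ C : ℝ, 0 < C ∧ ∀ d : Dat, ∀ r : ℕ, ∀ t : Finset ℕ,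
    (∀ q ∈ t, 0 < q ∧ q < r ∧ (r : ℝ) / q ≤ bt (q.gcd r) * Psi r ^ 6 ∧ d.BP q r) →
    ∑ q ∈ t, (Psi q * Psi r) ^ 3 * (Psi q / Psi r) ^ 12 / (r / q.gcd r : ℕ) ≤ C / Psi r ^ 2 := by
  obtain ⟨C1, c1, h1⟩ := mult_sum 15
  obtain ⟨C2, c2, h2⟩ := Psi_div 15
  refine ⟨(28 + C1) * C2, by positivity, fun d r t ht => ?_⟩
  have pr := one_le_Psi r
  rcases Nat.eq_zero_or_pos r with rfl | hr
  · rw [eq_empty_of_forall_notMem fun q hq => absurd (ht q hq).2.1 (Nat.not_lt_zero q), sum_empty]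
    positivity
  refine far_div (by positivity) hr (h2 r hr) t _ fun g hg => ?_
  have g0 := Nat.pos_of_mem_divisors hg
  have g1 : (0 : ℝ) < g := Nat.cast_pos.2 g0
  have r0 : (0 : ℝ) < r := Nat.cast_pos.2 hr
  have b1 := one_le_bt g0
  have pg := Psi_pos g
  have gr := Nat.dvd_of_mem_divisors hg
  have e1 : ((r / g : ℕ) : ℝ) = r / g := Nat.cast_div gr g1.ne'
  obtain ⟨u, hu⟩ : ∃ u, u = t.filter fun q => q.gcd r = g := ⟨_, rfl⟩
  have hu1 : ∀ q ∈ u, q ∈ t ∧ q.gcd r = g := fun q hq => mem_filter.1 (hu ▸ hq)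
  have hu2 : ∀ q ∈ u, g ∣ q := fun q hq => (hu1 q hq).2 ▸ Nat.gcd_dvd_left q r
  have j1 : r < 2 ^ (Nat.log 2 r + 1) := Nat.lt_pow_succ_log_self one_lt_two r
  have j2 : (2 : ℝ) ^ Nat.log 2 r ≤ r := by exact_mod_cast Nat.pow_log_le_self 2 hr.ne'
  have p6 : 1 ≤ Psi r ^ 6 := one_le_pow₀ pr
  have hc := d.boh_count g0 ((Nat.le_of_dvd hr gr).trans j1.le)
    (one_le_mul_of_one_le_of_one_le b1 p6) (u.image fun q => ((r / g : ℕ) : ℤ) - (q / g : ℕ))
    (fun ν hν => by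
      obtain ⟨q, h, rfl⟩ := mem_image.1 hν
      obtain ⟨-, h3, h4, h5⟩ := ht q (hu1 q h).1
      rw [(hu1 q h).2] at h4
      constructor
      · have e2 : ((q / g : ℕ) : ℝ) ≤ (r / g : ℕ) := Nat.cast_le.2 (Nat.div_le_div_right h3.le)
        rw [Int.cast_sub, Int.cast_natCast, Int.cast_natCast, abs_of_nonneg (sub_nonneg.2 e2)]
        refine (sub_le_self _ (Nat.cast_nonneg _)).trans (Nat.cast_div_le.trans ?_)
        gcongr
        exact_mod_cast j1.le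
      · rw [Dat.BP, (hu1 q h).2] at h5
        refine h5.mono ?_
        gcongr)
  rw [card_image_of_injOn fun q h q' h' e => by
    have e1 : q / g = q' / g := by exact_mod_cast sub_right_injective e
    rw [← Nat.div_mul_cancel (hu2 q h), e1, Nat.div_mul_cancel (hu2 q' h')]] at hc
  have h3 := (h1 g g0 (r / g) (by positivity) u fun q hq => ⟨(ht q (hu1 q hq).1).1, hu2 q hq, by
    rw [mul_div_cancel₀ _ g1.ne']
    exact_mod_cast (ht q (hu1 q hq).1).2.1.le⟩).2 (bt g ^ 4) (by positivity)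
  have h4 : bt g ^ 4 * (u.card : ℝ) + C1 * (r / g) / bt g ^ 4 ≤
      (28 + C1) * (r / g) * Psi r ^ 6 / bt g := by
    have a1 : (u.card : ℝ) ≤ 14 * (2 * r / g) * (bt g * Psi r ^ 6) / bt g ^ 8 := by
      refine hc.trans ?_
      rw [pow_succ, mul_comm _ (2 : ℝ)]
      gcongr
    have a2 : bt g ^ 4 * (u.card : ℝ) ≤ 28 * (r / g) * Psi r ^ 6 / bt g := by
      refine (mul_le_mul_of_nonneg_left a1 (by positivity)).trans ?_
      have a3 : bt g ^ 4 * (14 * (2 * r / g) * (bt g * Psi r ^ 6) / bt g ^ 8) =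
          28 * (r / g) * Psi r ^ 6 / bt g ^ 3 := by
        field_simp
        ring
      rw [a3]
      exact div_le_div_of_nonneg_left (by positivity) (by positivity)
        (le_self_pow₀ b1 (by norm_num))
    have a4 : C1 * (r / g) / bt g ^ 4 ≤ C1 * (r / g) * Psi r ^ 6 / bt g :=
      div_le_div₀ (by positivity) (le_mul_of_one_le_right (by positivity) p6) (by positivity)
        (le_self_pow₀ b1 (by norm_num))
    have a5 : (28 + C1) * (r / g) * Psi r ^ 6 / bt g =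
        28 * (r / g) * Psi r ^ 6 / bt g + C1 * (r / g) * Psi r ^ 6 / bt g := by ring
    linarith
  rw [← hu]
  calc _ = 1 / Psi r ^ 9 / (r / g) * ∑ q ∈ u, Psi q ^ 15 := by
        rw [mul_sum]
        exact sum_congr rfl fun q hq => by rw [(hu1 q hq).2, e1]; field_simp
    _ ≤ 1 / Psi r ^ 9 / (r / g) * (Psi g ^ 15 * ((28 + C1) * (r / g) * Psi r ^ 6 / bt g)) := by
        gcongr
        exact h3.trans (mul_le_mul_of_nonneg_left h4 (by positivity))
    _ = _ := by field_simp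

end Vale.Agent.P028
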