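import Vale.Agent.P028.Sieve
import Vale.Agent.P028.Count
import Vale.Agent.P028.Anat

/-! # P028 Good
Good pairs.
Plan. g = gcd, q = g q1, r = g r1, v = 2^a, P = primorial v <= 4^v <= D. Apply cntP to Prs with
u a = (forall p in primeFactors q, p <= v -> not p | lin q a), v likewise for r (every such p divides
q and P: Nat.Prime.dvd_primorial), R = 2D; small_card gives card <= rhv rhv g (4D + P) <= 5 rhv rhv g D;
rhv_le; finally g * D * min (psi q / q) (psi r / r) = psi q * psi r (min times max). -/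

namespace Vale.Agent.P028
open Finset MeasureTheory
open scoped Classical

theorem good_per (d : Dat) (q v : ℕ) {n : ℕ} (hn : ∀ p ∈ q.primeFactors, p ≤ v → p ∣ n) (a k : ℤ)
    (h : ∀ p ∈ q.primeFactors, p ≤ v → ¬ (p : ℤ) ∣ d.lin q a) :
    ∀ p ∈ q.primeFactors, p ≤ v → ¬ (p : ℤ) ∣ d.lin q (a + k * n) := by
  intro p hp hv hd
  refine h p hp hv ?_
  have h1 : (p : ℤ) ∣ n := Int.natCast_dvd_natCast.2 (hn p hp hv)
  have e : d.lin q a = d.lin q (a + k * n) - n * (k * d.B (Nat.log 2 q)) := by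
    unfold Dat.lin
    ring
  rw [e]
  exact hd.sub (h1.mul_right _)

theorem good_mm {g q r x y : ℝ} (hg : 0 < g) (hq : 0 < q) (hr : 0 < r) :
    min (x / (g * q)) (y / (g * r)) * (g * max (r * x) (q * y)) = x * y := by
  have e1 : x / (g * q) = r * x / (g * q * r) := by field_simp
  have e2 : y / (g * r) = q * y / (g * q * r) := by field_simp
  rw [e1, e2, min_div_div_right (by positivity)]
  have e3 := min_mul_max (r * x) (q * y)
  field_simp
  linarith

theorem Dat.good (d : Dat) {q r : ℕ} (hq : 0 < q) (hr : 0 < r) {a : ℕ}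
    (hD : (4 : ℝ) ^ 2 ^ a ≤ d.D q r) (h1 : Lt (2 ^ a) q ≤ 5) (h2 : Lt (2 ^ a) r ≤ 5) :
    d.ov q r ≤ 10 * Real.exp 20 * (d.w q * d.w r) := by
  have hg : 0 < q.gcd r := Nat.gcd_pos_of_pos_left r hq
  have eq : q.gcd r * (q / q.gcd r) = q := Nat.mul_div_cancel' (Nat.gcd_dvd_left q r)
  have er : q.gcd r * (r / q.gcd r) = r := Nat.mul_div_cancel' (Nat.gcd_dvd_right q r)
  have hq1 : 0 < q / q.gcd r := Nat.pos_of_mul_pos_left (by rw [eq]; exact hq)
  have hr1 : 0 < r / q.gcd r := Nat.pos_of_mul_pos_left (by rw [er]; exact hr)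
  have hP : 0 < primorial (2 ^ a) := primorial_pos _
  have hP' : (0 : ℝ) < primorial (2 ^ a) := by exact_mod_cast hP
  have hPD : (primorial (2 ^ a) : ℝ) ≤ d.D q r :=
    le_trans (by exact_mod_cast primorial_le_four_pow (2 ^ a)) hD
  have hD0 : 0 ≤ d.D q r := hP'.le.trans hPD
  have dP : ∀ n : ℕ, ∀ p ∈ n.primeFactors, p ≤ 2 ^ a → p ∣ primorial (2 ^ a) := fun n p hp hv =>
    (Nat.prime_of_mem_primeFactors hp).dvd_primorial_iff.2 hv
  have key := cntP (g := q.gcd r) hq1 (Nat.coprime_div_gcd_div_gcd hg) hP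
    (β := d.γ * ((r / q.gcd r : ℕ) - (q / q.gcd r : ℕ))) (R := 2 * d.D q r) (by positivity)
    (fun b => ∀ p ∈ q.primeFactors, p ≤ 2 ^ a → ¬ (p : ℤ) ∣ d.lin q b)
    (fun b => ∀ p ∈ r.primeFactors, p ≤ 2 ^ a → ¬ (p : ℤ) ∣ d.lin r b)
    (good_per d q _ fun p hp _ => by rw [eq]; exact Nat.dvd_of_mem_primeFactors hp)
    (good_per d q _ (dP q))
    (good_per d r _ fun p hp _ => by rw [er]; exact Nat.dvd_of_mem_primeFactors hp)
    (good_per d r _ (dP r)) (d.Prs q r) (fun x hx => by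
      simp only [Dat.Prs, Dat.sv, mem_filter, mem_product, mem_Ico] at hx
      rw [eq]
      exact ⟨hx.1.1.1.1, hx.1.1.1.2, hx.2, fun p hp _ => hx.1.1.2 p hp,
        fun p hp _ => hx.1.2.2 p hp⟩)
  have s1 := d.small_card (2 ^ a) q
  have s2 := d.small_card (2 ^ a) r
  rw [filter_congr_decidable, s1, filter_congr_decidable, s2] at key
  have n1 := d.rhv_nonneg (2 ^ a) q
  have n2 := d.rhv_nonneg (2 ^ a) r
  have hg' : (0 : ℝ) < q.gcd r := by exact_mod_cast hg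
  have k2 : ((d.Prs q r).card : ℝ) ≤
      d.rhv (2 ^ a) q * d.rhv (2 ^ a) r * (5 * (q.gcd r * d.D q r)) := by
    refine le_trans (le_of_mul_le_mul_left (key.trans_eq ?_) hP' :
      _ ≤ d.rhv (2 ^ a) q * d.rhv (2 ^ a) r * (q.gcd r * (4 * d.D q r + primorial (2 ^ a)))) ?_
    · field_simp
      ring
    · exact mul_le_mul_of_nonneg_left (by nlinarith) (mul_nonneg n1 n2)
  have k3 : d.rhv (2 ^ a) q * d.rhv (2 ^ a) r ≤ Real.exp 20 * (d.rho q * d.rho r) := by
    refine (mul_le_mul (d.rhv_le h1) (d.rhv_le h2) n2 (n1.trans (d.rhv_le h1))).trans_eq ?_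
    rw [show (20 : ℝ) = 10 + 10 by norm_num, Real.exp_add]
    ring
  have k4 : min (d.ψ q / q) (d.ψ r / r) * (q.gcd r * d.D q r) = d.ψ q * d.ψ r := by
    have := good_mm (x := d.ψ q) (y := d.ψ r) hg' (Nat.cast_pos.2 hq1) (Nat.cast_pos.2 hr1)
    rwa [← Nat.cast_mul, ← Nat.cast_mul, eq, er] at this
  have m0 : 0 ≤ min (d.ψ q / q) (d.ψ r / r) :=
    le_min (div_nonneg (d.ψ0 q) (Nat.cast_nonneg q)) (div_nonneg (d.ψ0 r) (Nat.cast_nonneg r))
  calc d.ov q r ≤ 2 * min (d.ψ q / q) (d.ψ r / r) *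
        (d.rhv (2 ^ a) q * d.rhv (2 ^ a) r * (5 * (q.gcd r * d.D q r))) :=
        mul_le_mul_of_nonneg_left k2 (by positivity)
    _ = 10 * (d.ψ q * d.ψ r) * (d.rhv (2 ^ a) q * d.rhv (2 ^ a) r) := by rw [← k4]; ring
    _ ≤ 10 * (d.ψ q * d.ψ r) * (Real.exp 20 * (d.rho q * d.rho r)) :=
        mul_le_mul_of_nonneg_left k3 (mul_nonneg (by norm_num) (mul_nonneg (d.ψ0 q) (d.ψ0 r)))
    _ = _ := by
        unfold Dat.w
        ring

end Vale.Agent.P028
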