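import Vale.Agent.P028.Ov
import Vale.Agent.P028.Div
import Vale.Agent.P028.Anat

/-! # P028 Low
Lower equidistribution in open sets.
Plan. low_grid: for i in I take the numerators in Ico x_i (x_i + N), x_i = ceil (q i / M + |gamma| + 1),
N = floor (q / M - 2 |gamma| - 3) (as a natural number); these ranges are disjoint, inside Ico 0 q,
and their intervals lie in Icc (i / M) ((i + 1) / M). sv_low and E_low give
card I * (N rho - 2^omega) * 2 psi / q; for large q, N >= 3q / (4M) and 2^omega <= q rho / (4M)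
(rho_ge_two, four_pow). low_open: compact K in O with measure at least half (IsOpen.exists_lt_isCompact
or trivial if the measure is 0), IsCompact.exists_cthickening_subset_open, M > 1 / delta, I = the i < M
whose closed interval meets K; these intervals cover K, so card I / M >= measure of K. -/

namespace Vale.Agent.P028
open Finset MeasureTheory
open scoped Classical

namespace Dat
variable (d : Dat)

theorem low_rng {t u γ : ℝ} (hu : 0 ≤ u - 2 * |γ| - 3) {a : ℤ}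
    (h : a ∈ Ico ⌈t + |γ| + 1⌉ (⌈t + |γ| + 1⌉ + (⌊u - 2 * |γ| - 3⌋₊ : ℕ))) :
    t + |γ| + 1 ≤ a ∧ a + |γ| + 1 ≤ t + u := by
  obtain ⟨h1, h2⟩ := mem_Ico.1 h
  have h3 := Int.ceil_lt_add_one (t + |γ| + 1)
  have h4 := Nat.floor_le hu
  have h5 : (a : ℝ) ≤ ⌈t + |γ| + 1⌉ + (⌊u - 2 * |γ| - 3⌋₊ : ℕ) := by exact_mod_cast h2.le
  exact ⟨Int.ceil_le.1 h1, by linarith⟩

theorem low_big {M : ℕ} (hM : 0 < M) : ∀ᶠ q : ℕ in Filter.atTop, 0 < q ∧
    8 * |d.γ| + 16 ≤ (q : ℝ) / M ∧ 2 ^ q.primeFactors.card ≤ (q : ℝ) / M / 4 * d.rho q := by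
  obtain ⟨C, hC, h⟩ := four_pow
  have hM' : (0 : ℝ) < M := by exact_mod_cast hM
  have t := tendsto_natCast_atTop_atTop (R := ℝ)
  filter_upwards [Filter.eventually_gt_atTop 0, t.eventually_ge_atTop ((8 * |d.γ| + 16) * M),
    t.eventually_ge_atTop ((4 * M * C) ^ 2)] with q h1 h2 h3
  refine ⟨h1, (le_div_iff₀ hM').2 h2, ?_⟩
  have h4 : 4 * M * C ≤ √q := Real.le_sqrt_of_sq_le h3
  have h5 := h q h1
  have h6 : (0 : ℝ) < 2 ^ q.primeFactors.card := by positivity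
  have h7 : (4 : ℝ) ^ q.primeFactors.card = 2 ^ q.primeFactors.card * 2 ^ q.primeFactors.card := by
    rw [← mul_pow]
    norm_num
  have h8 : √q * √q = q := Real.mul_self_sqrt (Nat.cast_nonneg q)
  have h9 := mul_le_mul_of_nonneg_right h4 (Real.sqrt_nonneg (q : ℝ))
  refine le_trans ?_ (mul_le_mul_of_nonneg_left (d.rho_ge_two q) (by positivity))
  rw [mul_one_div, le_div_iff₀ h6, ← h7, le_div_iff₀ (by norm_num), le_div_iff₀ hM']
  nlinarith [mul_le_mul_of_nonneg_right h5 hM'.le]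

theorem low_grid (O : Set ℝ) {M : ℕ} (hM : 0 < M) (I : Finset ℕ)
    (hI : ∀ i ∈ I, i < M ∧ Set.Icc ((i : ℝ) / M) ((i + 1) / M) ⊆ O) :
    ∀ᶠ q in Filter.atTop, (I.card : ℝ) / M * d.w q ≤ volume.real (d.E q ∩ O) := by
  filter_upwards [d.low_big hM] with q ⟨hq, h1, h2⟩
  have hM' : (0 : ℝ) < M := by exact_mod_cast hM
  have hq' : (0 : ℝ) < q := by exact_mod_cast hq
  have hγ := abs_nonneg d.γ
  obtain ⟨u, hu⟩ : ∃ u : ℝ, u = (q : ℝ) / M := ⟨_, rfl⟩
  rw [← hu] at h1 h2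
  have hqu : (q : ℝ) = u * M := by rw [hu, div_mul_cancel₀ _ hM'.ne']
  have u0 : 0 ≤ u - 2 * |d.γ| - 3 := by linarith
  have up : 0 < u := by linarith
  obtain ⟨N, hN⟩ : ∃ N : ℕ, N = ⌊u - 2 * |d.γ| - 3⌋₊ := ⟨_, rfl⟩
  obtain ⟨T, hT⟩ : ∃ T : ℕ → Finset ℤ, T = fun i : ℕ => (d.sv q).filter fun a =>
      a ∈ Ico ⌈u * i + |d.γ| + 1⌉ (⌈u * i + |d.γ| + 1⌉ + N) := ⟨_, rfl⟩
  have rng : ∀ i : ℕ, ∀ a ∈ T i, a ∈ d.sv q ∧ u * i + |d.γ| + 1 ≤ a ∧
      a + |d.γ| + 1 ≤ u * i + u := by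
    intro i a ha
    rw [hT, mem_filter, hN] at ha
    exact ⟨ha.1, low_rng u0 ha.2⟩
  have hc : ∀ i ∈ I, u / 2 * d.rho q ≤ (T i).card := by
    intro i hi
    have i0 : (0 : ℝ) ≤ i := Nat.cast_nonneg i
    have i1 : (i : ℝ) + 1 ≤ M := by exact_mod_cast (hI i hi).1
    have k1 := Int.ceil_lt_add_one (u * i + |d.γ| + 1)
    have k2 := Nat.floor_le u0
    have k3 := Nat.lt_floor_add_one (u - 2 * |d.γ| - 3)
    rw [← hN] at k2 k3
    have k4 := d.sv_low q ⌈u * i + |d.γ| + 1⌉ N (Int.ceil_nonneg (by positivity)) (by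
      have : ((⌈u * i + |d.γ| + 1⌉ : ℤ) : ℝ) + N ≤ q := by
        nlinarith [mul_le_mul_of_nonneg_left i1 up.le]
      exact_mod_cast this)
    have k5 := mul_le_mul_of_nonneg_right (show 3 * u / 4 ≤ N by linarith) (d.rho_pos q).le
    rw [hT]
    linarith
  have hdis : (I : Set ℕ).PairwiseDisjoint T := by
    have key : ∀ i j : ℕ, i < j → Disjoint (T i) (T j) := by
      intro i j hij
      refine disjoint_left.2 fun a h1 h2 => ?_
      have k1 := (rng i a h1).2.2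
      have k2 := (rng j a h2).2.1
      have k3 : (i : ℝ) + 1 ≤ j := by exact_mod_cast hij
      nlinarith [mul_le_mul_of_nonneg_left k3 up.le]
    intro i _ j _ hij
    rcases lt_or_gt_of_ne hij with h | h
    · exact key i j h
    · exact (key j i h).symm
  refine le_trans ?_ (d.E_low hq O (I.biUnion T) (fun a ha => ?_) fun a ha x hx => ?_)
  · rw [card_biUnion hdis, Nat.cast_sum]
    have k1 : (I.card : ℝ) * (u / 2 * d.rho q) ≤ ∑ i ∈ I, ((T i).card : ℝ) := by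
      simpa using card_nsmul_le_sum I _ _ hc
    refine le_trans (le_of_eq ?_) (mul_le_mul_of_nonneg_right k1
      (div_nonneg (mul_nonneg zero_le_two (d.ψ0 q)) hq'.le))
    have e : ∀ c r p : ℝ, c / M * (r * p) = c * (u / 2 * r) * (2 * p / (u * M)) := by
      intro c r p
      clear * - up hM'
      field_simp
    rw [Dat.w, hqu, e]
  · obtain ⟨i, -, hi⟩ := mem_biUnion.1 ha
    exact (rng i a hi).1
  · obtain ⟨i, hi, ha⟩ := mem_biUnion.1 ha
    obtain ⟨-, k1, k2⟩ := rng i a ha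
    have k3 := abs_lt.1 hx
    have k4 := abs_le.1 (le_refl |d.γ|)
    rw [hqu] at k3
    refine (hI i hi).2 ⟨(div_le_iff₀ hM').2 ?_, (le_div_iff₀ hM').2 ?_⟩
    · exact le_of_mul_le_mul_left (by nlinarith) up
    · exact le_of_mul_le_mul_left (by nlinarith) up

theorem low_open {O : Set ℝ} (hO : IsOpen O) (h1 : O ⊆ Set.Ioo 0 1) :
    ∀ᶠ q in Filter.atTop, volume.real O / 2 * d.w q ≤ volume.real (d.E q ∩ O) := by
  have hf : volume O ≠ ⊤ := ne_top_of_le_ne_top (by simp) (measure_mono h1)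
  by_cases h0 : volume O = 0
  · refine Filter.Eventually.of_forall fun q => ?_
    rw [measureReal_def, h0, ENNReal.toReal_zero, zero_div, zero_mul]
    exact measureReal_nonneg
  obtain ⟨K, hK, hc, hv⟩ := hO.exists_lt_isCompact (ENNReal.half_lt_self h0 hf)
  obtain ⟨δ, hδ, hth⟩ := hc.exists_cthickening_subset_open hO hK
  obtain ⟨m, hm⟩ := exists_nat_one_div_lt hδ
  have hM : (0 : ℝ) < (m + 1 : ℕ) := by positivity
  obtain ⟨I, hI⟩ : ∃ I : Finset ℕ, I = (range (m + 1)).filter fun i : ℕ =>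
      (Set.Icc ((i : ℝ) / (m + 1 : ℕ)) ((i + 1) / (m + 1 : ℕ)) ∩ K).Nonempty := ⟨_, rfl⟩
  have e : ∀ i : ℕ, ((i : ℝ) + 1) / (m + 1 : ℕ) - i / (m + 1 : ℕ) = 1 / (m + 1 : ℕ) := by
    intro i
    ring
  have h2 : volume.real O / 2 ≤ (I.card : ℝ) / (m + 1 : ℕ) := by
    have k1 : volume.real O / 2 ≤ volume.real K := by
      have := ENNReal.toReal_mono hc.measure_lt_top.ne hv.le
      rwa [ENNReal.toReal_div, ENNReal.toReal_ofNat] at this
    have k2 : K ⊆ ⋃ i ∈ I, Set.Icc ((i : ℝ) / (m + 1 : ℕ)) ((i + 1) / (m + 1 : ℕ)) := by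
      intro x hx
      obtain ⟨x0, x1⟩ := h1 (hK hx)
      have a0 : 0 ≤ x * (m + 1 : ℕ) := by positivity
      have a1 : x ∈ Set.Icc ((⌊x * (m + 1 : ℕ)⌋₊ : ℝ) / (m + 1 : ℕ))
          ((⌊x * (m + 1 : ℕ)⌋₊ + 1) / (m + 1 : ℕ)) :=
        ⟨(div_le_iff₀ hM).2 (Nat.floor_le a0), (le_div_iff₀ hM).2 (Nat.lt_floor_add_one _).le⟩
      refine Set.mem_biUnion (x := ⌊x * (m + 1 : ℕ)⌋₊) ?_ a1
      rw [hI, mem_coe, mem_filter, mem_range]
      exact ⟨(Nat.floor_lt a0).2 (mul_lt_of_lt_one_left hM x1), x, a1, hx⟩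
    refine k1.trans ((measureReal_mono k2 ?_).trans ((measureReal_biUnion_finset_le _ _).trans ?_))
    · exact (measure_biUnion_lt_top I.finite_toSet fun i _ => measure_Icc_lt_top).ne
    · simp only [Real.volume_real_Icc, e]
      rw [sum_const, nsmul_eq_mul, max_eq_left (by positivity), mul_one_div]
  refine (d.low_grid O (Nat.succ_pos m) I fun i hi => ?_).mono fun q hq =>
    (mul_le_mul_of_nonneg_right h2 (d.w_nonneg q)).trans hq
  · rw [hI, mem_filter, mem_range] at hi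
    obtain ⟨hi1, y, hy1, hy2⟩ := hi
    refine ⟨hi1, fun x hx => hth (Metric.mem_cthickening_of_dist_le x y δ K hy2 ?_)⟩
    have := e i
    have hm' : 1 / ((m + 1 : ℕ) : ℝ) < δ := by exact_mod_cast hm
    rw [Real.dist_eq, abs_le]
    constructor <;> linarith [hx.1, hx.2, hy1.1, hy1.2]

end Dat

end Vale.Agent.P028
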