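import Vale.Agent.P028.Tot
import Vale.Agent.P028.Low
import Vale.Agent.P028.CE

/-! # P028 Main -/

namespace Vale.Agent.P028
open Finset MeasureTheory

theorem exists_dat (γ : ℝ) (ψ : ℕ → ℝ) (h0 : ∀ q, 0 ≤ ψ q) (h1 : ∀ q : ℕ, (q : ℝ) * ψ q ≤ 1 / 4) :
    ∃ d : Dat, d.γ = γ ∧ d.ψ = ψ := by
  choose ξ h2 h3 using fun j : ℕ =>
    Real.exists_rat_abs_sub_le_and_den_le γ (n := 2 ^ (j / 2)) (by positivity)
  refine ⟨⟨γ, ψ, fun j => (ξ j).num, fun j => (ξ j).den, h0, h1, fun j => ?_,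
    fun j => (ξ j).pos, h3, fun j => ?_⟩, rfl, rfl⟩
  · exact Int.isCoprime_iff_gcd_eq_one.2 (ξ j).reduced
  · have hd : (0 : ℝ) < (ξ j).den := Nat.cast_pos.2 (ξ j).pos
    have e : ((ξ j).den : ℝ) * γ - (ξ j).num = (ξ j).den * (γ - ξ j) := by
      rw [Rat.cast_def]
      field_simp
    rw [e, abs_mul, abs_of_pos hd]
    refine (mul_le_mul_of_nonneg_left (h2 j) hd.le).trans ?_
    push_cast
    rw [mul_one_div, div_le_div_iff₀ (by positivity) (by positivity)]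
    nlinarith

theorem unit (γ : ℝ) (ψ : ℕ → ℝ) (h0 : ∀ q, 0 ≤ ψ q) (h1 : ∀ q : ℕ, (q : ℝ) * ψ q ≤ 1 / 4)
    (hd : ¬ Summable fun q : ℕ => (q.totient : ℝ) / q * ψ q) :
    volume (Set.Ioo (0 : ℝ) 1 \ {x | ∀ n, ∃ q : ℕ, n ≤ q ∧ ∃ a : ℤ, |q * x - a - γ| < ψ q}) = 0 := by
  obtain ⟨d, rfl, rfl⟩ := exists_dat γ ψ h0 h1
  obtain ⟨C, hC, h⟩ := tot
  have hw : ¬ Summable d.w := fun hs => hd (hs.of_nonneg_of_le
    (fun q => mul_nonneg (by positivity) (h0 q)) fun q => by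
      rcases Nat.eq_zero_or_pos q with rfl | hq
      · simpa using d.w_nonneg 0
      · exact mul_le_mul_of_nonneg_right (d.phi_le_rho hq) (h0 q))
  refine measure_mono_null (Set.sdiff_subset_sdiff_right fun x hx n => ?_)
    (full d.E (fun q => (d.E_open q).measurableSet) d.E_sub d.w d.w_nonneg hw hC
      (fun O h1 h2 => d.low_open h1 h2) (h d))
  obtain ⟨q, hq, a, -, ha⟩ := hx n
  exact ⟨q, hq, a, ha⟩

theorem main (γ : ℝ) (ψ : ℕ → ℝ) (h0 : ∀ q, 0 ≤ ψ q)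
    (hd : ¬ Summable fun q : ℕ => (q.totient : ℝ) / q * min (ψ q) (1 / q)) :
    ∀ᵐ x : ℝ, {q : ℕ | 0 < q ∧ ∃ a : ℤ, |q * x - a - γ| < ψ q}.Infinite := by
  have m0 : ∀ q : ℕ, 0 ≤ min (ψ q) (1 / q) := fun q => le_min (h0 q) (by positivity)
  have h := unit γ (fun q => min (ψ q) (1 / q) / 4) (fun q => by have := m0 q; positivity)
    (fun q => by
      have h1 : (q : ℝ) * min (ψ q) (1 / q) ≤ q * (1 / q) :=
        mul_le_mul_of_nonneg_left (min_le_right _ _) (Nat.cast_nonneg _)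
      have h2 : (q : ℝ) * (1 / q) ≤ 1 := by rw [mul_one_div]; exact div_self_le_one _
      linarith)
    (fun hs => hd ((hs.mul_left 4).congr fun q => by ring))
  have h1 : ∀ k : ℤ, ∀ᵐ x : ℝ, x - k ∈ Set.Ioo (0 : ℝ) 1 →
      ∀ n, ∃ q : ℕ, n ≤ q ∧ ∃ a : ℤ, |q * (x - k) - a - γ| < min (ψ q) (1 / q) / 4 := fun k => by
    have h2 := (measurePreserving_sub_right volume (k : ℝ)).quasiMeasurePreserving.ae
      (measure_eq_zero_iff_ae_notMem.1 h)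
    filter_upwards [h2] with x hx h3
    by_contra h4
    exact hx ⟨h3, h4⟩
  have h2 : ∀ᵐ x : ℝ, ∀ k : ℤ, x ≠ k := ae_all_iff.2 fun k => by
    simpa using measure_eq_zero_iff_ae_notMem.1 (measure_singleton (μ := volume) (k : ℝ))
  filter_upwards [ae_all_iff.2 h1, h2] with x hx hk
  refine Set.infinite_of_forall_exists_gt fun n => ?_
  obtain ⟨q, hq, a, ha⟩ := hx ⌊x⌋
    ⟨sub_pos.2 ((Int.floor_le x).lt_of_ne (hk _).symm), by linarith [Int.lt_floor_add_one x]⟩ (n + 1)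
  refine ⟨q, ⟨by omega, a + q * ⌊x⌋, ?_⟩, hq⟩
  have e : (q : ℝ) * x - ((a + q * ⌊x⌋ : ℤ) : ℝ) - γ = q * (x - ⌊x⌋) - a - γ := by
    push_cast
    ring
  rw [e]
  linarith [m0 q, min_le_left (ψ q) (1 / q)]

end Vale.Agent.P028
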