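import Vale.Agent.P028.Defs

/-! # P028 Mom
Moments of Psi.
Plan. Psi_mom: Psi n ^ K = prod over p in primeFactors n of (1 + f p), f p = exp (K p^(-1/32)) - 1,
0 <= f p <= c p^(-1/32) with c = exp K (convexity, or exp t - 1 <= t exp t, adjust c). Expand with
Finset.prod_one_add over subsets S of the primes P in range (floor x + 1); swap the sums; the
number of n <= x divisible by all p in S is at most x / prod S (Finset.prod_primes_dvd,
Nat.card_multiples or an injection n -> n / m); resum: x * prod over P of (1 + f p / p) <=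
x * exp (c * tsum n^(-33/32)). mult_sum: reindex n = g * m (image of n / g, injective on u), use
Psi_mul; second part from t <= L + t^2 / L with the moment 2K. -/

namespace Vale.Agent.P028
open Finset MeasureTheory
open scoped Classical

theorem mom_card {x : ℝ} (hx : 0 ≤ x) {s S : Finset ℕ} (hs : ∀ n ∈ s, 0 < n ∧ (n : ℝ) ≤ x)
    (hS : ∀ p ∈ S, p.Prime) : (#{n ∈ s | ∀ p ∈ S, p ∣ n} : ℝ) ≤ x / ∏ p ∈ S, (p : ℝ) := by
  have h : #{n ∈ s | ∀ p ∈ S, p ∣ n} ≤ ⌊x⌋₊ / ∏ p ∈ S, p := by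
    rw [← Nat.Ioc_filter_dvd_card_eq_div]
    refine card_le_card fun n hn => ?_
    obtain ⟨h1, h2⟩ := mem_filter.1 hn
    exact mem_filter.2 ⟨mem_Ioc.2 ⟨(hs n h1).1, Nat.le_floor (hs n h1).2⟩,
      prod_primes_dvd n (fun p hp => (hS p hp).prime) h2⟩
  refine ((Nat.cast_le.2 h).trans Nat.cast_div_le).trans ?_
  rw [Nat.cast_prod]
  exact div_le_div_of_nonneg_right (Nat.floor_le hx) (prod_nonneg fun _ _ => Nat.cast_nonneg _)

theorem mom_f (K : ℕ) {p : ℕ} (hp : 0 < p) : (Real.exp (K * (p : ℝ) ^ (-(1 / 32 : ℝ))) - 1) / p ≤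
    K * Real.exp K * (p : ℝ) ^ (-(33 / 32 : ℝ)) := by
  have p1 : (1 : ℝ) ≤ p := Nat.one_le_cast.2 hp
  have h1 : (p : ℝ) ^ (-(1 / 32 : ℝ)) ≤ 1 := Real.rpow_le_one_of_one_le_of_nonpos p1 (by norm_num)
  rw [show -(33 / 32 : ℝ) = -(1 / 32) - 1 by norm_num, Real.rpow_sub_one (by positivity),
    ← mul_div_assoc, mul_right_comm]
  gcongr
  have h0 : 0 ≤ K * (p : ℝ) ^ (-(1 / 32 : ℝ)) := by positivity
  have h2 := Real.exp_le_exp.2 (mul_le_of_le_one_right (Nat.cast_nonneg K) h1)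
  generalize K * (p : ℝ) ^ (-(1 / 32 : ℝ)) = t at h0 h2
  have h3 := mul_le_mul_of_nonneg_right (Real.add_one_le_exp (-t)) (Real.exp_pos t).le
  rw [← Real.exp_add, neg_add_cancel, Real.exp_zero] at h3
  nlinarith

theorem Psi_mom (K : ℕ) : ∃ C : ℝ, 0 < C ∧ ∀ x : ℝ, 0 ≤ x → ∀ s : Finset ℕ,
    (∀ n ∈ s, 0 < n ∧ (n : ℝ) ≤ x) → ∑ n ∈ s, Psi n ^ K ≤ C * x := by
  refine ⟨Real.exp (K * Real.exp K * ∑' n : ℕ, (n : ℝ) ^ (-(33 / 32 : ℝ))), Real.exp_pos _,
    fun x hx s hs => ?_⟩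
  set f : ℕ → ℝ := fun p => Real.exp (K * (p : ℝ) ^ (-(1 / 32 : ℝ))) - 1 with hf
  set P := {p ∈ range (⌊x⌋₊ + 1) | p.Prime} with hP
  have f0 : ∀ p, 0 ≤ f p := fun p => sub_nonneg.2 (Real.one_le_exp (by positivity))
  have e : ∀ n ∈ s, Psi n ^ K =
      ∑ S ∈ P.powerset, if ∀ p ∈ S, p ∣ n then ∏ p ∈ S, f p else 0 := fun n hn => by
    have e1 : n.primeFactors = {p ∈ P | p ∣ n} := by
      ext p
      simp only [hP, Nat.mem_primeFactors, mem_filter, mem_range, Nat.lt_succ_iff]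
      exact ⟨fun h => ⟨⟨(Nat.le_of_dvd (hs n hn).1 h.2.1).trans (Nat.le_floor (hs n hn).2), h.1⟩,
        h.2.1⟩, fun h => ⟨h.1.2, h.2, (hs n hn).1.ne'⟩⟩
    simp only [← prod_ite_zero, ← prod_one_add]
    rw [Psi, ← Real.exp_nat_mul, mul_sum, Real.exp_sum, e1, prod_filter]
    exact prod_congr rfl fun p _ => by split_ifs <;> simp [hf]
  calc ∑ n ∈ s, Psi n ^ K = ∑ S ∈ P.powerset, #{n ∈ s | ∀ p ∈ S, p ∣ n} * ∏ p ∈ S, f p := by
        rw [sum_congr rfl e, sum_comm]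
        simp only [← sum_filter, sum_const, nsmul_eq_mul]
    _ ≤ ∑ S ∈ P.powerset, (∏ p ∈ S, f p / p) * x := sum_le_sum fun S hS => by
        rw [prod_div_distrib, div_mul_comm]
        exact mul_le_mul_of_nonneg_right (mom_card hx hs fun p hp =>
          (mem_filter.1 (mem_powerset.1 hS hp)).2) (prod_nonneg fun p _ => f0 p)
    _ ≤ _ := by
        rw [← sum_mul, ← prod_one_add]
        refine mul_le_mul_of_nonneg_right ((Real.prod_one_add_le_exp_sum _ fun p =>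
          div_nonneg (f0 p) (Nat.cast_nonneg p)).trans (Real.exp_le_exp.2 ?_)) hx
        refine (sum_le_sum fun p hp => mom_f K (mem_filter.1 hp).2.pos).trans ?_
        rw [← mul_sum]
        exact mul_le_mul_of_nonneg_left ((Real.summable_nat_rpow.2 (by norm_num)).sum_le_tsum _
          fun _ _ => by positivity) (by positivity)

theorem mult_sum (K : ℕ) : ∃ C : ℝ, 0 < C ∧ ∀ g : ℕ, 0 < g → ∀ x : ℝ, 0 ≤ x → ∀ u : Finset ℕ,
    (∀ n ∈ u, 0 < n ∧ g ∣ n ∧ (n : ℝ) ≤ g * x) →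
      ∑ n ∈ u, Psi n ^ K ≤ C * Psi g ^ K * x ∧
      ∀ L : ℝ, 0 < L → ∑ n ∈ u, Psi n ^ K ≤ Psi g ^ K * (L * u.card + C * x / L) := by
  obtain ⟨C, C0, hC⟩ := Psi_mom K
  obtain ⟨D, D0, hD⟩ := Psi_mom (2 * K)
  refine ⟨C + D, by positivity, fun g hg x hx u hu => ?_⟩
  have hs : ∀ m ∈ u.image (· / g), 0 < m ∧ (m : ℝ) ≤ x := fun m hm => by
    obtain ⟨n, hn, rfl⟩ := mem_image.1 hm
    obtain ⟨h1, h2, h3⟩ := hu n hn
    exact ⟨Nat.div_pos (Nat.le_of_dvd h1 h2) hg,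
      Nat.cast_div_le.trans ((div_le_iff₀' (Nat.cast_pos.2 hg)).2 h3)⟩
  have h : ∑ n ∈ u, Psi n ^ K ≤ Psi g ^ K * ∑ m ∈ u.image (· / g), Psi m ^ K := by
    rw [sum_image fun a ha b hb e => (Nat.div_left_inj (hu a ha).2.1 (hu b hb).2.1).1 e, mul_sum]
    refine sum_le_sum fun n hn => ?_
    rw [← mul_pow]
    exact pow_le_pow_left₀ (Psi_pos n).le
      ((congrArg Psi (Nat.mul_div_cancel' (hu n hn).2.1)).ge.trans (Psi_mul _ _)) K
  have g0 := (pow_pos (Psi_pos g) K).le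
  refine ⟨h.trans ?_, fun L hL => h.trans (mul_le_mul_of_nonneg_left ?_ g0)⟩
  · rw [mul_comm (C + D), mul_assoc]
    exact mul_le_mul_of_nonneg_left ((hC x hx _ hs).trans (by nlinarith)) g0
  · calc _ ≤ ∑ m ∈ u.image (· / g), (L + Psi m ^ (2 * K) / L) := sum_le_sum fun m _ => by
          rw [pow_mul', add_div' _ _ _ hL.ne', le_div_iff₀ hL]
          nlinarith [sq_nonneg (Psi m ^ K - L), sq_nonneg L, sq_nonneg (Psi m ^ K)]
      _ ≤ _ := by
          rw [sum_add_distrib, sum_const, nsmul_eq_mul, mul_comm, ← sum_div]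
          exact add_le_add (mul_le_mul_of_nonneg_left (Nat.cast_le.2 card_image_le) hL.le)
            (div_le_div_of_nonneg_right ((hD x hx _ hs).trans (by nlinarith)) hL.le)

end Vale.Agent.P028
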