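import Vale.Agent.P028.Mom
import Vale.Agent.P028.Div
import Vale.Agent.P028.Bohr

/-! # P028 NearQ
The sum with the smaller denominator fixed.
Plan. Split t by (g, j) = (gcd q r, log 2 r), g in q.divisors, j >= j0 = log 2 q. On a fibre put
q1 = q / g, Y = 2^(j+1) / g, L = 2^(j+1) / q >= 1, so L / 2 <= r / q <= L and Y / q1 = L. Insert
1 <= (2 bt g Psi r ^ 6 / L)^3. The map r -> r / g - q1 is injective, boh_count (Boh.mono) gives
card <= 14 Y L / bt g ^ 8; second part of mult_sum 33 with parameter bt g ^ 4 and x = Y bounds the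
fibre by C Psi g ^ 33 / bt g / Psi q ^ 9 / L. The sum over j >= j0 of q / 2^(j+1) is at most 2;
Psi_div 33. -/

namespace Vale.Agent.P028
open Finset MeasureTheory
open scoped Classical

theorem nq_geo (a n : ℕ) : ∑ j ∈ Ico a (a + n), (1 / 2 ^ (j + 1) : ℝ) = 1 / 2 ^ a - 1 / 2 ^ (a + n) := by
  induction n with
  | zero => simp
  | succ n ih =>
    rw [← add_assoc, sum_Ico_succ_top (Nat.le_add_right a n), ih, pow_succ]
    field_simp
    ring

theorem nq_sum {q : ℕ} (J : Finset ℕ) (hJ : ∀ j ∈ J, Nat.log 2 q ≤ j) :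
    ∑ j ∈ J, (q : ℝ) / 2 ^ (j + 1) ≤ 2 := by
  have h1 : J ⊆ Ico (Nat.log 2 q) (Nat.log 2 q + (J.sup id + 1)) := fun j hj =>
    mem_Ico.2 ⟨hJ j hj, by have : j ≤ J.sup id := le_sup (f := id) hj; omega⟩
  have h2 : (q : ℝ) < 2 ^ (Nat.log 2 q + 1) := by
    exact_mod_cast Nat.lt_pow_succ_log_self one_lt_two q
  calc ∑ j ∈ J, (q : ℝ) / 2 ^ (j + 1) ≤ ∑ j ∈ Ico (Nat.log 2 q) (Nat.log 2 q + (J.sup id + 1)),
        (q : ℝ) / 2 ^ (j + 1) := sum_le_sum_of_subset_of_nonneg h1 fun _ _ _ => by positivity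
    _ = q * ∑ j ∈ Ico (Nat.log 2 q) (Nat.log 2 q + (J.sup id + 1)), (1 / 2 ^ (j + 1) : ℝ) := by
        rw [mul_sum]
        exact sum_congr rfl fun _ _ => by ring
    _ ≤ q * (1 / 2 ^ Nat.log 2 q) := by
        rw [nq_geo]
        exact mul_le_mul_of_nonneg_left (sub_le_self _ (by positivity)) (Nat.cast_nonneg _)
    _ ≤ 2 := by
        rw [mul_one_div, div_le_iff₀ (by positivity)]
        rw [pow_succ] at h2
        linarith

theorem nq_fib {C : ℝ} (hC : 0 < C) (d : Dat) {q g j : ℕ} (hq : 0 < q) (hg : g ∣ q)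
    (hm : ∀ x : ℝ, 0 ≤ x → ∀ u : Finset ℕ, (∀ n ∈ u, 0 < n ∧ g ∣ n ∧ (n : ℝ) ≤ g * x) →
      ∀ L : ℝ, 0 < L → ∑ n ∈ u, Psi n ^ 33 ≤ Psi g ^ 33 * (L * u.card + C * x / L))
    (hj : Nat.log 2 q ≤ j) (u : Finset ℕ)
    (hu : ∀ r ∈ u, q < r ∧ (r : ℝ) / q ≤ bt (q.gcd r) * Psi r ^ 6 ∧ d.BP q r ∧ q.gcd r = g ∧
      Nat.log 2 r = j) :
    ∑ r ∈ u, (Psi q * Psi r) ^ 3 * (Psi r / Psi q) ^ 12 / (q / q.gcd r : ℕ) ≤
      8 * (14 + C) / Psi q ^ 9 * (Psi g ^ 33 / bt g) * (q / 2 ^ (j + 1)) := by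
  have g0 : 0 < g := Nat.pos_of_dvd_of_pos hg hq
  have g1 : (0 : ℝ) < g := Nat.cast_pos.2 g0
  have q0 : (0 : ℝ) < q := Nat.cast_pos.2 hq
  have b1 := one_le_bt g0
  have pq := Psi_pos q
  have pg := Psi_pos g
  have hq2 : q < 2 ^ (j + 1) := (Nat.lt_pow_succ_log_self one_lt_two q).trans_le
    (Nat.pow_le_pow_right two_pos (by omega))
  have hr : ∀ r ∈ u, (2 : ℝ) ^ j ≤ r ∧ (r : ℝ) ≤ 2 ^ (j + 1) ∧ g ∣ r := fun r h => by
    obtain ⟨h1, -, -, h2, h3⟩ := hu r h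
    refine ⟨?_, ?_, h2 ▸ Nat.gcd_dvd_right q r⟩
    · exact_mod_cast h3 ▸ Nat.pow_log_le_self 2 (by omega : r ≠ 0)
    · exact_mod_cast h3 ▸ (Nat.lt_pow_succ_log_self one_lt_two r).le
  obtain ⟨L, hL⟩ : ∃ L : ℝ, L = 2 ^ (j + 1) / q := ⟨_, rfl⟩
  obtain ⟨Y, hY⟩ : ∃ Y : ℝ, Y = 2 ^ (j + 1) / g := ⟨_, rfl⟩
  have L1 : 1 ≤ L := by
    rw [hL, one_le_div q0]
    exact_mod_cast hq2.le
  have Y0 : 0 < Y := by rw [hY]; positivity
  have hc := d.boh_count g0 ((Nat.le_of_dvd hq hg).trans hq2.le) L1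
    (u.image fun r => ((r / g : ℕ) : ℤ) - (q / g : ℕ)) (fun ν hν => by
      obtain ⟨r, h, rfl⟩ := mem_image.1 hν
      obtain ⟨h1, -, h2, h3, h4⟩ := hu r h
      obtain ⟨-, h5, h6⟩ := hr r h
      have e1 : q / g ≤ r / g := Nat.div_le_div_right h1.le
      constructor
      · have e2 : ((q / g : ℕ) : ℝ) ≤ (r / g : ℕ) := Nat.cast_le.2 e1
        rw [Int.cast_sub, Int.cast_natCast, Int.cast_natCast, abs_of_nonneg (sub_nonneg.2 e2)]
        refine (sub_le_self _ (Nat.cast_nonneg _)).trans (Nat.cast_div_le.trans ?_)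
        gcongr
      · rw [Dat.BP, h3, h4] at h2
        refine h2.mono ?_
        rw [hL]
        gcongr)
  rw [card_image_of_injOn fun r h r' h' e => by
    have e1 : r / g = r' / g := by exact_mod_cast sub_left_injective e
    rw [← Nat.div_mul_cancel (hr r h).2.2, e1, Nat.div_mul_cancel (hr r' h').2.2], ← hY] at hc
  have h1 := hm Y Y0.le u (fun r h => ⟨hq.trans (hu r h).1, (hr r h).2.2, by
    rw [hY, mul_div_cancel₀ _ g1.ne']
    exact (hr r h).2.1⟩) (bt g ^ 4) (by positivity)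
  have h2 : ∑ n ∈ u, Psi n ^ 33 ≤ Psi g ^ 33 * ((14 + C) * Y * L / bt g ^ 4) := by
    refine h1.trans (mul_le_mul_of_nonneg_left ?_ (by positivity))
    have e1 : bt g ^ 4 * (u.card : ℝ) ≤ bt g ^ 4 * (14 * Y * L / bt g ^ 8) := by gcongr
    have e2 : bt g ^ 4 * (14 * Y * L / bt g ^ 8) = 14 * Y * L / bt g ^ 4 := by field_simp
    have e3 : C * Y / bt g ^ 4 ≤ C * Y * L / bt g ^ 4 :=
      div_le_div_of_nonneg_right (le_mul_of_one_le_right (by positivity) L1) (by positivity)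
    have e4 : (14 + C) * Y * L / bt g ^ 4 = 14 * Y * L / bt g ^ 4 + C * Y * L / bt g ^ 4 := by ring
    linarith
  have eq1 : ((q / g : ℕ) : ℝ) = Y / L := by
    rw [Nat.cast_div hg g1.ne', hY, hL]
    field_simp
  calc ∑ r ∈ u, (Psi q * Psi r) ^ 3 * (Psi r / Psi q) ^ 12 / (q / q.gcd r : ℕ)
      ≤ ∑ r ∈ u, 8 * bt g ^ 3 / L ^ 2 / Y / Psi q ^ 9 * Psi r ^ 33 := by
        refine sum_le_sum fun r h => ?_
        obtain ⟨-, h3, -, h4, -⟩ := hu r h
        have pr := Psi_pos r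
        rw [h4] at h3
        have h5 : L ≤ 2 * (bt g * Psi r ^ 6) := by
          refine le_trans ?_ (mul_le_mul_of_nonneg_left h3 two_pos.le)
          rw [hL, pow_succ, mul_comm, mul_div_assoc]
          gcongr
          exact (hr r h).1
        have h6 : 1 ≤ (2 * (bt g * Psi r ^ 6) / L) ^ 3 :=
          one_le_pow₀ ((one_le_div (by linarith)).2 h5)
        rw [h4, eq1]
        refine (le_mul_of_one_le_right (by positivity) h6).trans_eq ?_
        field_simp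
        ring
    _ = 8 * bt g ^ 3 / L ^ 2 / Y / Psi q ^ 9 * ∑ r ∈ u, Psi r ^ 33 := by rw [mul_sum]
    _ ≤ 8 * bt g ^ 3 / L ^ 2 / Y / Psi q ^ 9 * (Psi g ^ 33 * ((14 + C) * Y * L / bt g ^ 4)) := by
        gcongr
    _ = 8 * (14 + C) / Psi q ^ 9 * (Psi g ^ 33 / bt g) * L⁻¹ := by field_simp
    _ = _ := by rw [hL, inv_div]

theorem near_q : ∃ C : ℝ, 0 < C ∧ ∀ d : Dat, ∀ q : ℕ, 0 < q → ∀ t : Finset ℕ,
    (∀ r ∈ t, q < r ∧ (r : ℝ) / q ≤ bt (q.gcd r) * Psi r ^ 6 ∧ d.BP q r) →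
    ∑ r ∈ t, (Psi q * Psi r) ^ 3 * (Psi r / Psi q) ^ 12 / (q / q.gcd r : ℕ) ≤ C / Psi q ^ 2 := by
  obtain ⟨C1, c1, h1⟩ := mult_sum 33
  obtain ⟨C2, c2, h2⟩ := Psi_div 33
  refine ⟨8 * (14 + C1) * 2 * C2, by positivity, fun d q hq t ht => ?_⟩
  have pq := one_le_Psi q
  rw [← sum_fiberwise_of_maps_to (t := q.divisors) (g := fun r => q.gcd r)
    fun r _ => Nat.mem_divisors.2 ⟨Nat.gcd_dvd_left q r, hq.ne'⟩]
  calc _ ≤ ∑ g ∈ q.divisors, 8 * (14 + C1) / Psi q ^ 9 * (Psi g ^ 33 / bt g) * 2 := by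
        refine sum_le_sum fun g hg => ?_
        have g0 := Nat.pos_of_mem_divisors hg
        have b1 := one_le_bt g0
        have pg := Psi_pos g
        have hJ : ∀ j ∈ t.image (Nat.log 2), Nat.log 2 q ≤ j := fun j hj => by
          obtain ⟨r, h, rfl⟩ := mem_image.1 hj
          exact Nat.log_mono_right (ht r h).1.le
        rw [← sum_fiberwise_of_maps_to (t := t.image (Nat.log 2)) (g := Nat.log 2)
          fun r h => mem_image_of_mem _ (mem_filter.1 h).1]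
        refine (sum_le_sum fun j hj => nq_fib c1 d hq (Nat.dvd_of_mem_divisors hg)
          (fun x hx u hu => (h1 g g0 x hx u hu).2) (hJ j hj) _ fun r h => ?_).trans ?_
        · obtain ⟨h3, h4⟩ := mem_filter.1 h
          obtain ⟨h5, h6⟩ := mem_filter.1 h3
          exact ⟨(ht r h5).1, (ht r h5).2.1, (ht r h5).2.2, h6, h4⟩
        · rw [← mul_sum]
          exact mul_le_mul_of_nonneg_left (nq_sum _ hJ) (by positivity)
    _ = 8 * (14 + C1) * 2 / Psi q ^ 9 * ∑ g ∈ q.divisors, Psi g ^ 33 / bt g := by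
        rw [mul_sum]
        exact sum_congr rfl fun _ _ => by ring
    _ ≤ 8 * (14 + C1) * 2 / Psi q ^ 9 * (C2 * Psi q) := by
        gcongr
        exact h2 q hq
    _ = 8 * (14 + C1) * 2 * C2 / Psi q ^ 8 := by field_simp
    _ ≤ _ := by
        gcongr
        norm_num

end Vale.Agent.P028
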