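import Vale.Agent.P028.Sieve

/-! # P028 Ov
From measure to counting.
Plan. E q is the finite union over a in sv q of the intervals Ioo ((a + gamma - psi q) / q)
((a + gamma + psi q) / q) of length 2 psi q / q. If x is in the intervals of a and b then
a r1 - b q1 + gamma (r1 - q1) = q1 (r x - b - gamma) - r1 (q x - a - gamma) because r1 q = q1 r,
so (a, b) is in Prs; the intersection of the two intervals has measure at most the smaller
length. vol_E uses sv_card. E_low: the intervals of different a are disjoint (psi q <= 1/4). -/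

namespace Vale.Agent.P028
open Finset MeasureTheory
open scoped Classical

namespace Dat
variable (d : Dat)

/-- one interval -/
def ovI (q : ℕ) (a : ℤ) : Set ℝ := {x | |q * x - a - d.γ| < d.ψ q}

theorem ov_E (q : ℕ) : d.E q = ⋃ a ∈ d.sv q, d.ovI q a := by
  ext x
  simp [E, ovI]

theorem ov_open (q : ℕ) (a : ℤ) : IsOpen (d.ovI q a) :=
  isOpen_lt (by fun_prop) continuous_const

theorem ov_eq {q : ℕ} (hq : 0 < q) (a : ℤ) :
    d.ovI q a = Set.Ioo ((a + d.γ - d.ψ q) / q) ((a + d.γ + d.ψ q) / q) := by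
  have h : (0 : ℝ) < q := Nat.cast_pos.2 hq
  ext x
  simp only [ovI, Set.mem_ofPred_eq, Set.mem_Ioo, abs_lt, div_lt_iff₀ h, lt_div_iff₀ h]
  constructor <;> rintro ⟨h1, h2⟩ <;> constructor <;> linarith

theorem ov_fin {q : ℕ} (hq : 0 < q) (a : ℤ) : volume (d.ovI q a) ≠ ⊤ := by
  rw [d.ov_eq hq]
  exact measure_Ioo_lt_top.ne

theorem ov_vol {q : ℕ} (hq : 0 < q) (a : ℤ) : volume.real (d.ovI q a) = 2 * d.ψ q / q := by
  have h : (0 : ℝ) < q := Nat.cast_pos.2 hq
  rw [d.ov_eq hq, Real.volume_real_Ioo_of_le]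
  · ring
  · exact div_le_div_of_nonneg_right (by linarith [d.ψ0 q]) h.le

theorem ov_psi {q : ℕ} (hq : 0 < q) : d.ψ q ≤ 1 / 4 := by
  have h : (1 : ℝ) ≤ q := Nat.one_le_cast.2 hq
  nlinarith [d.ψ0 q, d.ψ1 q]

theorem E_open (q : ℕ) : IsOpen (d.E q) := by
  rw [ov_E]
  exact isOpen_biUnion fun a _ => d.ov_open q a

theorem E_sub (q : ℕ) : d.E q ⊆ Set.Icc (-|d.γ| - 1) (|d.γ| + 2) := by
  rintro x ⟨a, ha, hx⟩
  obtain ⟨h0, h1⟩ := mem_Ico.1 (mem_filter.1 ha).1
  have hq : 0 < q := by omega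
  have h : (1 : ℝ) ≤ q := Nat.one_le_cast.2 hq
  have h0' : (0 : ℝ) ≤ a := by exact_mod_cast h0
  have h1' : (a : ℝ) < q := by exact_mod_cast h1
  have h2 := d.ov_psi hq
  obtain ⟨h3, h4⟩ := abs_lt.1 hx
  have h5 := le_abs_self d.γ
  have h6 := neg_abs_le d.γ
  have h7 := abs_nonneg d.γ
  constructor
  · by_contra hc
    push Not at hc
    nlinarith
  · by_contra hc
    push Not at hc
    nlinarith

theorem vol_E {q : ℕ} (hq : 0 < q) : volume.real (d.E q) ≤ 2 * d.w q := by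
  have h : (0 : ℝ) < q := Nat.cast_pos.2 hq
  rw [ov_E]
  refine (measureReal_biUnion_finset_le _ _).trans ?_
  simp only [d.ov_vol hq, sum_const, nsmul_eq_mul, d.sv_card, w]
  apply le_of_eq
  field_simp

theorem vol_inter {q r : ℕ} (hq : 0 < q) (hr : 0 < r) :
    volume.real (d.E q ∩ d.E r) ≤ d.ov q r := by
  have h : (0 : ℝ) < q := Nat.cast_pos.2 hq
  have h' : (0 : ℝ) < r := Nat.cast_pos.2 hr
  have hg : 0 < q.gcd r := Nat.gcd_pos_of_pos_left _ hq
  have hsub : d.E q ∩ d.E r ⊆ ⋃ x ∈ d.Prs q r, d.ovI q x.1 ∩ d.ovI r x.2 := by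
    rintro x ⟨⟨a, ha, hx⟩, ⟨b, hb, hy⟩⟩
    refine Set.mem_iUnion₂.2 ⟨(a, b), ?_, hx, hy⟩
    refine mem_filter.2 ⟨mem_product.2 ⟨ha, hb⟩, ?_⟩
    have e1 : ((q / q.gcd r : ℕ) : ℝ) * (q.gcd r : ℕ) = q := by
      exact_mod_cast Nat.div_mul_cancel (Nat.gcd_dvd_left q r)
    have e2 : ((r / q.gcd r : ℕ) : ℝ) * (q.gcd r : ℕ) = r := by
      exact_mod_cast Nat.div_mul_cancel (Nat.gcd_dvd_right q r)
    have p1 : (0 : ℝ) < (q / q.gcd r : ℕ) :=
      Nat.cast_pos.2 (Nat.div_pos (Nat.gcd_le_left _ hq) hg)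
    have p2 : (0 : ℝ) < (r / q.gcd r : ℕ) :=
      Nat.cast_pos.2 (Nat.div_pos (Nat.gcd_le_right _ hr) hg)
    have l1 := le_max_left (((r / q.gcd r : ℕ) : ℝ) * d.ψ q) ((q / q.gcd r : ℕ) * d.ψ r)
    have l2 := le_max_right (((r / q.gcd r : ℕ) : ℝ) * d.ψ q) ((q / q.gcd r : ℕ) * d.ψ r)
    unfold D
    generalize ((q / q.gcd r : ℕ) : ℝ) = u at *
    generalize ((r / q.gcd r : ℕ) : ℝ) = v at *
    generalize ((q.gcd r : ℕ) : ℝ) = g at *
    have e : (a : ℝ) * v - b * u + d.γ * (v - u) =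
        u * (r * x - b - d.γ) - v * (q * x - a - d.γ) := by
      rw [← e1, ← e2]; ring
    change |(a : ℝ) * v - b * u + d.γ * (v - u)| < _
    rw [e]
    have t := abs_sub (u * (r * x - b - d.γ)) (v * (q * x - a - d.γ))
    rw [abs_mul, abs_mul, abs_of_pos p1, abs_of_pos p2] at t
    have t1 := mul_lt_mul_of_pos_left hx p2
    have t2 := mul_lt_mul_of_pos_left hy p1
    linarith
  have hfin : volume (⋃ x ∈ d.Prs q r, d.ovI q x.1 ∩ d.ovI r x.2) ≠ ⊤ :=
    (measure_biUnion_lt_top (d.Prs q r).finite_toSet fun x _ =>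
      lt_of_le_of_lt (measure_mono Set.inter_subset_left) (d.ov_fin hq _).lt_top).ne
  refine (measureReal_mono hsub hfin).trans ((measureReal_biUnion_finset_le _ _).trans ?_)
  refine (sum_le_card_nsmul _ _ (2 * min (d.ψ q / q) (d.ψ r / r)) fun x _ => ?_).trans ?_
  · have a1 := measureReal_mono (μ := volume)
      (Set.inter_subset_left (s := d.ovI q x.1) (t := d.ovI r x.2)) (d.ov_fin hq _)
    have a2 := measureReal_mono (μ := volume)
      (Set.inter_subset_right (s := d.ovI q x.1) (t := d.ovI r x.2)) (d.ov_fin hr _)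
    rw [d.ov_vol hq, mul_div_assoc] at a1
    rw [d.ov_vol hr, mul_div_assoc] at a2
    rcases le_total (d.ψ q / q) (d.ψ r / r) with c | c
    · rwa [min_eq_left c]
    · rwa [min_eq_right c]
  · rw [nsmul_eq_mul, ov, mul_comm]

theorem E_low {q : ℕ} (hq : 0 < q) (O : Set ℝ) (T : Finset ℤ) (hT : T ⊆ d.sv q)
    (hO : ∀ a ∈ T, ∀ x : ℝ, |q * x - a - d.γ| < 1 → x ∈ O) :
    T.card * (2 * d.ψ q / q) ≤ volume.real (d.E q ∩ O) := by
  have h2 := d.ov_psi hq
  have hd : (T : Set ℤ).PairwiseDisjoint (d.ovI q) := by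
    intro a _ b _ hab
    refine Set.disjoint_left.2 fun x hx hy => hab ?_
    obtain ⟨h3, h4⟩ := abs_lt.1 (show |q * x - a - d.γ| < d.ψ q from hx)
    obtain ⟨h5, h6⟩ := abs_lt.1 (show |q * x - b - d.γ| < d.ψ q from hy)
    have k1 : (a : ℝ) < b + 1 := by linarith
    have k2 : (b : ℝ) < a + 1 := by linarith
    have k1' : a < b + 1 := by exact_mod_cast k1
    have k2' : b < a + 1 := by exact_mod_cast k2
    omega
  have hv := measureReal_biUnion_finset (μ := volume) hd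
    (fun a _ => (d.ov_open q a).measurableSet) fun a _ => d.ov_fin hq a
  simp only [d.ov_vol hq, sum_const, nsmul_eq_mul] at hv
  rw [← hv]
  refine measureReal_mono ?_ ?_
  · intro x hx
    obtain ⟨a, ha, hx⟩ := Set.mem_iUnion₂.1 hx
    exact ⟨⟨a, hT ha, hx⟩, hO a ha x (lt_of_lt_of_le hx (by linarith))⟩
  · exact (lt_of_le_of_lt (measure_mono (Set.inter_subset_left.trans (d.E_sub q)))
      measure_Icc_lt_top).ne

end Dat

end Vale.Agent.P028
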