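import Vale.Agent.P028.Defs

/-! # P028 Sieve
Legendre sieve for a linear form.
Plan. Prove by induction on P, for all m > 0 coprime to B and to the primes of P: the number
cnt P m of a in Ico x (x + N) with m | a B + A and no p in P dividing a B + A satisfies
|cnt P m - N / m * prod| <= 2^card P * e, where e = 1 in general and e = 0 if m * prod P divides N
(one statement with a real parameter e and the hypothesis on the base case for all m * prod S, S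
a subset of P). Step: cnt (insert p P) m = cnt P m - cnt P (m p). Base case: m | a B + A is one
residue class a = c mod m (B invertible mod m), Int.Ico_filter_modEq_card. sv_card and sv_low: primes
dividing B never divide lin (d.cop), so only the primes in the product rho matter. -/

namespace Vale.Agent.P028
open Finset MeasureTheory
open scoped Classical

theorem sieve_res (c : ℤ) {m : ℕ} (hm : 0 < m) (x : ℤ) (N : ℕ) :
    |(((Ico x (x + N)).filter fun a => a ≡ c [ZMOD m]).card : ℝ) - N / m| ≤ 1 ∧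
    (m ∣ N → (((Ico x (x + N)).filter fun a => a ≡ c [ZMOD m]).card : ℝ) = N / m) := by
  have hq : (0 : ℚ) < m := Nat.cast_pos.2 hm
  have h := Int.Ico_filter_modEq_card x (x + N) (r := m) (Int.natCast_pos.2 hm) c
  have e : (((x + N : ℤ) : ℚ) - c) / ((m : ℤ) : ℚ) = ((x : ℚ) - c) / m + (N : ℚ) / m := by
    push_cast
    ring
  have hN : (0 : ℚ) ≤ (N : ℚ) / m := by positivity
  rw [e, Int.cast_natCast, max_eq_left (sub_nonneg.2 (Int.ceil_mono (by linarith)))] at h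
  set k := ((Ico x (x + N)).filter fun a => a ≡ c [ZMOD m]).card
  set y : ℚ := ((x : ℚ) - c) / m
  refine ⟨?_, ?_⟩
  · have h' : (k : ℚ) = (⌈y + (N : ℚ) / m⌉ : ℚ) - (⌈y⌉ : ℚ) := by exact_mod_cast h
    have h1 := Int.le_ceil y
    have h2 := Int.ceil_lt_add_one y
    have h3 := Int.le_ceil (y + (N : ℚ) / m)
    have h4 := Int.ceil_lt_add_one (y + (N : ℚ) / m)
    have h5 : |(k : ℚ) - N / m| ≤ 1 := abs_le.2 ⟨by linarith, by linarith⟩
    have h6 := (Rat.cast_le (K := ℝ)).2 h5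
    simpa using h6
  · rintro ⟨n, rfl⟩
    have h1 : ((m * n : ℕ) : ℚ) / m = n := by
      rw [Nat.cast_mul, mul_div_cancel_left₀ _ hq.ne']
    rw [h1, Int.ceil_add_natCast, add_sub_cancel_left] at h
    rw [Nat.cast_mul, mul_div_cancel_left₀ _ (Nat.cast_pos.2 hm).ne']
    exact_mod_cast h

theorem sieve_cls (A : ℤ) {B m : ℕ} (hc : m.Coprime B) :
    ∃ c : ℤ, ∀ a : ℤ, (m : ℤ) ∣ a * B + A ↔ a ≡ c [ZMOD m] := by
  obtain ⟨u, v, h⟩ := Nat.isCoprime_iff_coprime.2 hc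
  refine ⟨-(A * v), fun a => ?_⟩
  rw [Int.modEq_comm, Int.modEq_iff_dvd]
  constructor
  · rintro ⟨t, ht⟩
    exact ⟨t * v + a * u, by linear_combination v * ht - a * h⟩
  · rintro ⟨t, ht⟩
    exact ⟨t * B + A * u, by linear_combination (B : ℤ) * ht - A * h⟩

theorem sieve_gen (A : ℤ) (B : ℕ) (x : ℤ) (N : ℕ) (P : Finset ℕ) :
    (∀ p ∈ P, p.Prime ∧ ¬ p ∣ B) → ∀ m : ℕ, 0 < m → m.Coprime B → (∀ p ∈ P, ¬ p ∣ m) →
    |(((Ico x (x + N)).filter fun a => (m : ℤ) ∣ a * B + A ∧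
      ∀ p ∈ P, ¬ (p : ℤ) ∣ a * B + A).card : ℝ) - N / m * ∏ p ∈ P, (1 - 1 / p : ℝ)| ≤
        2 ^ P.card ∧
    (m ∣ N → (∀ p ∈ P, p ∣ N) → (((Ico x (x + N)).filter fun a => (m : ℤ) ∣ a * B + A ∧
      ∀ p ∈ P, ¬ (p : ℤ) ∣ a * B + A).card : ℝ) = N / m * ∏ p ∈ P, (1 - 1 / p : ℝ)) := by
  induction P using Finset.induction_on with
  | empty =>
    intro _ m hm hc _
    obtain ⟨c, h⟩ := sieve_cls A hc
    simpa [h] using sieve_res c hm x N
  | insert p P hp ih =>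
    intro hP m hm hc hd
    have hP' : ∀ q ∈ P, q.Prime ∧ ¬ q ∣ B := fun q hq => hP q (mem_insert_of_mem hq)
    obtain ⟨hp1, hp2⟩ := hP p (mem_insert_self _ _)
    have hmp : m.Coprime p := ((Nat.Prime.coprime_iff_not_dvd hp1).2 (hd p (mem_insert_self _ _))).symm
    obtain ⟨a1, a2⟩ := ih hP' m hm hc fun q hq => hd q (mem_insert_of_mem hq)
    obtain ⟨b1, b2⟩ := ih hP' (m * p) (Nat.mul_pos hm hp1.pos)
      (hc.mul_left ((Nat.Prime.coprime_iff_not_dvd hp1).2 hp2)) fun q hq h =>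
        ((hP' q hq).1.dvd_mul.1 h).elim (hd q (mem_insert_of_mem hq)) fun h' =>
          hp ((Nat.prime_dvd_prime_iff_eq (hP' q hq).1 hp1).1 h' ▸ hq)
    have h := card_filter_add_card_filter_not (s := (Ico x (x + N)).filter fun a =>
      (m : ℤ) ∣ a * B + A ∧ ∀ q ∈ P, ¬ (q : ℤ) ∣ a * B + A) fun a => (p : ℤ) ∣ a * B + A
    rw [filter_filter, filter_filter, filter_congr (q := fun a => ((m * p : ℕ) : ℤ) ∣ a * B + A ∧
      ∀ q ∈ P, ¬ (q : ℤ) ∣ a * B + A), filter_congr (p := fun a => _ ∧ ¬ _)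
      (q := fun a => (m : ℤ) ∣ a * B + A ∧ ∀ q ∈ insert p P, ¬ (q : ℤ) ∣ a * B + A)] at h
    · have h' := congrArg (Nat.cast : ℕ → ℝ) h
      have e : (N : ℝ) / m * ((1 - 1 / p : ℝ) * ∏ q ∈ P, (1 - 1 / q : ℝ)) =
          N / m * ∏ q ∈ P, (1 - 1 / q : ℝ) - N / (m * p : ℕ) * ∏ q ∈ P, (1 - 1 / q : ℝ) := by
        rw [Nat.cast_mul, ← div_div]
        ring
      rw [Nat.cast_add] at h'
      rw [prod_insert hp, card_insert_of_notMem hp, e, pow_succ]
      refine ⟨?_, fun h1 h2 => ?_⟩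
      · rw [abs_le] at a1 b1 ⊢
        constructor <;> linarith [a1.1, a1.2, b1.1, b1.2]
      · have h3 : ∀ q ∈ P, q ∣ N := fun q hq => h2 q (mem_insert_of_mem hq)
        linarith [a2 h1 h3, b2 (hmp.mul_dvd_of_dvd_of_dvd h1 (h2 p (mem_insert_self _ _))) h3]
    · intro a _
      rw [forall_mem_insert]
      tauto
    · intro a _
      rw [Nat.cast_mul]
      exact ⟨fun h => ⟨(Nat.isCoprime_iff_coprime.2 hmp).mul_dvd h.1.1 h.2, h.1.2⟩,
        fun h => ⟨⟨dvd_of_mul_right_dvd h.1, h.2⟩, dvd_of_mul_left_dvd h.1⟩⟩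

theorem legendre (A : ℤ) (B : ℕ) (P : Finset ℕ) (hP : ∀ p ∈ P, p.Prime ∧ ¬ p ∣ B) (x : ℤ)
    (N : ℕ) :
    |(((Ico x (x + N)).filter fun a => ∀ p ∈ P, ¬ (p : ℤ) ∣ a * B + A).card : ℝ) -
      N * ∏ p ∈ P, (1 - 1 / p : ℝ)| ≤ 2 ^ P.card ∧
    ((∀ p ∈ P, p ∣ N) →
      (((Ico x (x + N)).filter fun a => ∀ p ∈ P, ¬ (p : ℤ) ∣ a * B + A).card : ℝ) =
        N * ∏ p ∈ P, (1 - 1 / p : ℝ)) := by
  have h := sieve_gen A B x N P hP 1 one_pos (Nat.coprime_one_left B)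
    fun p hp => (hP p hp).1.not_dvd_one
  simpa using h

namespace Dat
variable (d : Dat)

theorem sieve_nd (q : ℕ) {p : ℕ} (hp : p.Prime) (h : p ∣ d.B (Nat.log 2 q)) (a : ℤ) :
    ¬ (p : ℤ) ∣ d.lin q a := fun h1 => by
  have h2 : (p : ℤ) ∣ d.B (Nat.log 2 q) := Int.natCast_dvd_natCast.2 h
  exact (Nat.prime_iff_prime_int.1 hp).not_isUnit ((d.cop _).isUnit_of_dvd'
    ((dvd_add_right (h2.mul_left a)).1 h1) h2)

theorem sieve_iff (q : ℕ) (a : ℤ) : (∀ p ∈ q.primeFactors, ¬ (p : ℤ) ∣ d.lin q a) ↔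
    ∀ p ∈ q.primeFactors.filter fun p => ¬ p ∣ d.B (Nat.log 2 q),
      ¬ (p : ℤ) ∣ a * d.B (Nat.log 2 q) + d.A (Nat.log 2 q) :=
  ⟨fun h p hp => h p (mem_filter.1 hp).1, fun h p hp => (em (p ∣ d.B (Nat.log 2 q))).elim
    (fun h' => d.sieve_nd q (Nat.prime_of_mem_primeFactors hp) h' a)
    fun h' => h p (mem_filter.2 ⟨hp, h'⟩)⟩

theorem sv_card (q : ℕ) : ((d.sv q).card : ℝ) = q * d.rho q := by
  have h := (legendre (d.A (Nat.log 2 q)) (d.B (Nat.log 2 q))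
    (q.primeFactors.filter fun p => ¬ p ∣ d.B (Nat.log 2 q)) (fun p hp =>
      ⟨Nat.prime_of_mem_primeFactors (mem_filter.1 hp).1, (mem_filter.1 hp).2⟩) 0 q).2
    fun p hp => Nat.dvd_of_mem_primeFactors (mem_filter.1 hp).1
  rw [zero_add] at h
  rw [sv, filter_congr fun a _ => d.sieve_iff q a]
  exact h

theorem sv_low (q : ℕ) (x : ℤ) (N : ℕ) (h0 : 0 ≤ x) (h1 : x + N ≤ q) :
    N * d.rho q - 2 ^ q.primeFactors.card ≤ (((d.sv q).filter fun a => a ∈ Ico x (x + N)).card : ℝ) := by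
  have h := (abs_le.1 (legendre (d.A (Nat.log 2 q)) (d.B (Nat.log 2 q))
    (q.primeFactors.filter fun p => ¬ p ∣ d.B (Nat.log 2 q)) (fun p hp =>
      ⟨Nat.prime_of_mem_primeFactors (mem_filter.1 hp).1, (mem_filter.1 hp).2⟩) x N).1).1
  have h2 : (2 : ℝ) ^ (q.primeFactors.filter fun p => ¬ p ∣ d.B (Nat.log 2 q)).card ≤
      2 ^ q.primeFactors.card := pow_le_pow_right₀ one_le_two (card_filter_le _ _)
  have h3 : ((Ico x (x + N)).filter fun a => ∀ p ∈ q.primeFactors.filter fun p =>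
      ¬ p ∣ d.B (Nat.log 2 q), ¬ (p : ℤ) ∣ a * d.B (Nat.log 2 q) + d.A (Nat.log 2 q)) ⊆
      (d.sv q).filter fun a => a ∈ Ico x (x + N) := fun a ha => by
    obtain ⟨h4, h5⟩ := mem_filter.1 ha
    have h6 := mem_Ico.1 h4
    exact mem_filter.2 ⟨mem_filter.2 ⟨mem_Ico.2 ⟨h0.trans h6.1, h6.2.trans_le h1⟩,
      (d.sieve_iff q a).2 h5⟩, h4⟩
  have h4 := (Nat.cast_le (α := ℝ)).2 (card_le_card h3)
  rw [rho]
  linarith

theorem small_card (v q : ℕ) : (((Ico (0 : ℤ) (primorial v : ℕ)).filter fun a =>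
    ∀ p ∈ q.primeFactors, p ≤ v → ¬ (p : ℤ) ∣ d.lin q a).card : ℝ) = primorial v * d.rhv v q := by
  have h := (legendre (d.A (Nat.log 2 q)) (d.B (Nat.log 2 q))
    (q.primeFactors.filter fun p => p ≤ v ∧ ¬ p ∣ d.B (Nat.log 2 q)) (fun p hp =>
      ⟨Nat.prime_of_mem_primeFactors (mem_filter.1 hp).1, (mem_filter.1 hp).2.2⟩) 0
      (primorial v)).2 fun p hp => (Nat.prime_of_mem_primeFactors
        (mem_filter.1 hp).1).dvd_primorial_iff.2 (mem_filter.1 hp).2.1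
  rw [zero_add] at h
  rw [rhv, ← h]
  congr 2
  refine filter_congr fun a _ => ⟨fun h p hp => h p (mem_filter.1 hp).1 (mem_filter.1 hp).2.1,
    fun h p hp hv => (em (p ∣ d.B (Nat.log 2 q))).elim
      (fun h' => d.sieve_nd q (Nat.prime_of_mem_primeFactors hp) h' a)
      fun h' => h p (mem_filter.2 ⟨hp, hv, h'⟩)⟩

end Dat

end Vale.Agent.P028
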