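import Vale.Agent.P028.Far
import Vale.Agent.P028.NearQ
import Vale.Agent.P028.Bad
import Vale.Agent.P028.Ov

/-! # P028 Tot
The second moment bound.
Plan. For q < r, bad q r is at most psi r * (far term, if far) + psi r * (near_r term, if near and BP)
+ psi q * (near_q term, if near and BP), since 1 <= y + 1 / y for y = (Psi q / Psi r)^12. Sum, swap
the sums where needed, use psi x / Psi x ^ 2 <= w x (rho_ge). tot: split the pairs into q < r, q = r,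
r < q; vol_inter, ov_le, vol_E. -/

namespace Vale.Agent.P028
open Finset MeasureTheory
open scoped Classical

theorem tot_pt (d : Dat) (q r : ℕ) : d.bad q r ≤
    d.ψ r * (if bt (q.gcd r) * Psi r ^ 6 ≤ (r : ℝ) / q then
      (Psi q * Psi r) ^ 3 / (r / q.gcd r : ℕ) else 0) +
    d.ψ r * (if (r : ℝ) / q ≤ bt (q.gcd r) * Psi r ^ 6 ∧ d.BP q r then
      (Psi q * Psi r) ^ 3 * (Psi q / Psi r) ^ 12 / (r / q.gcd r : ℕ) else 0) +
    d.ψ q * (if (r : ℝ) / q ≤ bt (q.gcd r) * Psi r ^ 6 ∧ d.BP q r then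
      (Psi q * Psi r) ^ 3 * (Psi r / Psi q) ^ 12 / (q / q.gcd r : ℕ) else 0) := by
  have hq := Psi_pos q
  have hr := Psi_pos r
  have pq := d.ψ0 q
  have pr := d.ψ0 r
  have key : ∀ (c : Prop) [Decidable c] (x y : ℝ), 0 ≤ x → 0 ≤ y → 0 ≤ x * if c then y else 0 := by
    intro c _ x y hx hy
    split_ifs
    · exact mul_nonneg hx hy
    · simp
  have k1 := key (bt (q.gcd r) * Psi r ^ 6 ≤ (r : ℝ) / q) _
    ((Psi q * Psi r) ^ 3 / (r / q.gcd r : ℕ)) pr (by positivity)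
  have k2 := key ((r : ℝ) / q ≤ bt (q.gcd r) * Psi r ^ 6 ∧ d.BP q r) _
    ((Psi q * Psi r) ^ 3 * (Psi q / Psi r) ^ 12 / (r / q.gcd r : ℕ)) pr (by positivity)
  have k3 := key ((r : ℝ) / q ≤ bt (q.gcd r) * Psi r ^ 6 ∧ d.BP q r) _
    ((Psi q * Psi r) ^ 3 * (Psi r / Psi q) ^ 12 / (q / q.gcd r : ℕ)) pq (by positivity)
  unfold Dat.bad
  by_cases hb : ¬ d.BP q r
  · rw [if_neg hb]
    linarith
  rw [not_not] at hb
  rw [if_pos hb]
  have hP : 0 ≤ (Psi q * Psi r) ^ 3 := by positivity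
  have m1 := mul_le_mul_of_nonneg_left
    (min_le_left (d.ψ q / (q / q.gcd r : ℕ)) (d.ψ r / (r / q.gcd r : ℕ))) hP
  have m2 := mul_le_mul_of_nonneg_left
    (min_le_right (d.ψ q / (q / q.gcd r : ℕ)) (d.ψ r / (r / q.gcd r : ℕ))) hP
  rcases le_total (bt (q.gcd r) * Psi r ^ 6) ((r : ℝ) / q) with h | h
  · rw [if_pos h]
    have e : d.ψ r * ((Psi q * Psi r) ^ 3 / (r / q.gcd r : ℕ)) =
      (Psi q * Psi r) ^ 3 * (d.ψ r / (r / q.gcd r : ℕ)) := by ring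
    linarith
  · rw [if_pos ⟨h, hb⟩] at k2 k3
    rw [if_pos (⟨h, hb⟩ : _ ∧ d.BP q r), if_pos (⟨h, hb⟩ : _ ∧ d.BP q r)]
    rcases le_total (Psi q) (Psi r) with h1 | h1
    · have y := mul_le_mul_of_nonneg_left (one_le_pow₀ (n := 12) ((one_le_div hq).2 h1))
        (show 0 ≤ (Psi q * Psi r) ^ 3 * (d.ψ q / (q / q.gcd r : ℕ)) by positivity)
      have e : d.ψ q * ((Psi q * Psi r) ^ 3 * (Psi r / Psi q) ^ 12 / (q / q.gcd r : ℕ)) =
        (Psi q * Psi r) ^ 3 * (d.ψ q / (q / q.gcd r : ℕ)) * (Psi r / Psi q) ^ 12 := by ring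
      linarith
    · have y := mul_le_mul_of_nonneg_left (one_le_pow₀ (n := 12) ((one_le_div hr).2 h1))
        (show 0 ≤ (Psi q * Psi r) ^ 3 * (d.ψ r / (r / q.gcd r : ℕ)) by positivity)
      have e : d.ψ r * ((Psi q * Psi r) ^ 3 * (Psi q / Psi r) ^ 12 / (r / q.gcd r : ℕ)) =
        (Psi q * Psi r) ^ 3 * (d.ψ r / (r / q.gcd r : ℕ)) * (Psi q / Psi r) ^ 12 := by ring
      linarith

theorem tot_w (d : Dat) {C x : ℝ} (hC : 0 < C) (q : ℕ) (h : x ≤ C / Psi q ^ 2) :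
    d.ψ q * x ≤ C * d.w q := by
  have h1 := mul_le_mul_of_nonneg_left h (d.ψ0 q)
  have h2 := mul_le_mul_of_nonneg_left (d.rho_ge q) (mul_nonneg hC.le (d.ψ0 q))
  have e : d.ψ q * (C / Psi q ^ 2) = C * d.ψ q * (1 / Psi q ^ 2) := by ring
  unfold Dat.w
  linarith

theorem tot_swap (s : Finset ℕ) (f : ℕ → ℕ → ℝ) :
    ∑ r ∈ s, ∑ q ∈ s with q < r, f q r = ∑ q ∈ s, ∑ r ∈ s with q < r, f q r := by
  simp only [sum_filter]
  exact sum_comm

theorem bad_sum : ∃ C : ℝ, 0 < C ∧ ∀ d : Dat, ∀ s : Finset ℕ, 0 ∉ s →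
    ∑ r ∈ s, ∑ q ∈ s with q < r, d.bad q r ≤ C * ∑ q ∈ s, d.w q := by
  obtain ⟨C1, p1, h1⟩ := far
  obtain ⟨C2, p2, h2⟩ := near_r
  obtain ⟨C3, p3, h3⟩ := near_q
  refine ⟨C1 + C2 + C3, by positivity, fun d s hs => ?_⟩
  have pos : ∀ q ∈ s, 0 < q := fun q hq => Nat.pos_of_ne_zero fun e => hs (e ▸ hq)
  refine (sum_le_sum fun r _ => sum_le_sum fun q _ => tot_pt d q r).trans ?_
  simp only [sum_add_distrib]
  rw [add_mul, add_mul]
  refine add_le_add (add_le_add ?_ ?_) ?_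
  · rw [mul_sum]
    refine sum_le_sum fun r _ => ?_
    rw [← mul_sum, ← sum_filter]
    refine tot_w d p1 r (h1 r _ fun q hq => ?_)
    simp only [mem_filter] at hq
    exact ⟨pos q hq.1.1, hq.1.2, hq.2⟩
  · rw [mul_sum]
    refine sum_le_sum fun r _ => ?_
    rw [← mul_sum, ← sum_filter]
    refine tot_w d p2 r (h2 d r _ fun q hq => ?_)
    simp only [mem_filter] at hq
    exact ⟨pos q hq.1.1, hq.1.2, hq.2⟩
  · rw [tot_swap, mul_sum]
    refine sum_le_sum fun q hq => ?_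
    rw [← mul_sum, ← sum_filter]
    refine tot_w d p3 q (h3 d q (pos q hq) _ fun r hr => ?_)
    simp only [mem_filter] at hr
    exact ⟨hr.1.2, hr.2⟩

theorem tot : ∃ C : ℝ, 0 < C ∧ ∀ d : Dat, ∀ s : Finset ℕ, 0 ∉ s →
    ∑ q ∈ s, ∑ r ∈ s, volume.real (d.E q ∩ d.E r) ≤
      C * ((∑ q ∈ s, d.w q) ^ 2 + ∑ q ∈ s, d.w q) := by
  obtain ⟨C, hC, h⟩ := bad_sum
  have hK := Real.exp_pos 20
  refine ⟨10 * Real.exp 20 + 80 * C + 2, by positivity, fun d s hs => ?_⟩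
  have pos : ∀ q ∈ s, 0 < q := fun q hq => Nat.pos_of_ne_zero fun e => hs (e ▸ hq)
  have pt : ∀ q ∈ s, ∀ r ∈ s, volume.real (d.E q ∩ d.E r) ≤ 10 * Real.exp 20 * (d.w q * d.w r) +
      40 * (if q < r then d.bad q r else 0) + 40 * (if r < q then d.bad r q else 0) +
      2 * (if q = r then d.w q else 0) := by
    intro q hq r hr
    rcases lt_trichotomy q r with h1 | h1 | h1
    · rw [if_pos h1, if_neg h1.not_gt, if_neg h1.ne]
      have := (d.vol_inter (pos q hq) (pos r hr)).trans (d.ov_le (pos q hq) h1)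
      linarith
    · subst h1
      rw [if_neg (lt_irrefl q), if_pos rfl, Set.inter_self]
      have := d.vol_E (pos q hq)
      have := mul_nonneg hK.le (mul_self_nonneg (d.w q))
      linarith
    · rw [if_pos h1, if_neg h1.not_gt, if_neg h1.ne', Set.inter_comm, mul_comm (d.w q)]
      have := (d.vol_inter (pos r hr) (pos q hq)).trans (d.ov_le (pos r hr) h1)
      linarith
  refine (sum_le_sum fun q hq => sum_le_sum fun r hr => pt q hq r hr).trans ?_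
  have e1 : ∑ q ∈ s, ∑ r ∈ s, d.w q * d.w r = (∑ q ∈ s, d.w q) ^ 2 := by
    rw [sq, sum_mul_sum]
  have e2 : ∑ q ∈ s, ∑ r ∈ s, (if q = r then d.w q else 0) = ∑ q ∈ s, d.w q :=
    sum_congr rfl fun q hq => by rw [sum_ite_eq, if_pos hq]
  have e3 := h d s hs
  have e4 := e3
  rw [tot_swap] at e4
  simp only [sum_filter] at e3 e4
  simp only [sum_add_distrib, ← mul_sum]
  simp only [← mul_sum] at e1
  rw [e1, e2]
  have w0 : 0 ≤ ∑ q ∈ s, d.w q := sum_nonneg fun q _ => d.w_nonneg q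
  have := mul_nonneg hK.le w0
  have := mul_nonneg hC.le (sq_nonneg (∑ q ∈ s, d.w q))
  have := sq_nonneg (∑ q ∈ s, d.w q)
  nlinarith

end Vale.Agent.P028
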